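import Vale.Agent.Lib.P328.Cap.Cap

/-!
# P328, capacity bound: integrating out one column
-/

namespace Vale.Agent.Lib.P328.Cap

open Finset MeasureTheory
open scoped ENNReal Nat

variable {m n : ℕ}

/-- Splitting the first factor of a finite power. -/
theorem lintegral_cons {E : Type} [MeasureSpace E] [SigmaFinite (volume : Measure E)] (n : ℕ)
    (F : (Fin (n + 1) → E) → ℝ≥0∞) :
    ∫⁻ t, F t = ∫⁻ p : E × (Fin n → E), F (Fin.cons p.1 p.2)
      ∂((volume : Measure E).prod (volume : Measure (Fin n → E))) := by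
  have h := (volume_preserving_piFinSuccAbove (fun _ : Fin (n + 1) => E) 0).symm
  have h2 := h.lintegral_comp_emb (MeasurableEquiv.measurableEmbedding _) F
  rw [← h2]
  refine lintegral_congr fun a => ?_
  congr 1
  simp [MeasurableEquiv.piFinSuccAbove_symm_apply, Fin.insertNthEquiv, Fin.insertNth_zero']

theorem measurable_expDens : Measurable expDens := by
  unfold expDens
  refine Measurable.ite measurableSet_Ioi ?_ measurable_const
  exact (Real.measurable_exp.comp measurable_neg).ennreal_ofReal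

/-- The integral over a product of one dimensional functions. -/
theorem lintegral_pi_prod : ∀ (m : ℕ) (f : Fin m → ℝ → ℝ≥0∞), (∀ i, Measurable (f i)) →
    ∫⁻ x : Fin m → ℝ, ∏ i, f i (x i) = ∏ i, ∫⁻ y, f i y := by
  intro m
  induction m with
  | zero =>
    intro f _
    simp [volume_pi]
  | succ m ih =>
    intro f hf
    rw [lintegral_cons]
    simp only [Fin.prod_univ_succ, Fin.cons_zero, Fin.cons_succ]
    have hg : Measurable fun x : Fin m → ℝ => ∏ i, f i.succ (x i) :=
      Finset.measurable_prod _ fun i _ => (hf i.succ).comp (measurable_pi_apply i)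
    have h3 := lintegral_prod_mul (μ := (volume : Measure ℝ)) (ν := (volume : Measure (Fin m → ℝ)))
      (f := f 0) (g := fun x : Fin m → ℝ => ∏ i, f i.succ (x i))
      (hf 0).aemeasurable hg.aemeasurable
    rw [h3, ih _ fun i => hf i.succ]

/-- The Gamma integral. -/
theorem lintegral_expDens_pow (k : ℕ) :
    ∫⁻ y, expDens y * ENNReal.ofReal (y ^ k) = ((k ! : ℕ) : ℝ≥0∞) := by
  have h1 : (fun y : ℝ => expDens y * ENNReal.ofReal (y ^ k))
      = (Set.Ioi (0 : ℝ)).indicator fun y => ENNReal.ofReal (Real.exp (-y) * y ^ (((k : ℝ) + 1) - 1)) := by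
    funext y
    by_cases hy : 0 < y
    · rw [Set.indicator_of_mem (Set.mem_Ioi.2 hy)]
      unfold expDens
      rw [if_pos hy, ← ENNReal.ofReal_mul (Real.exp_pos _).le]
      congr 2
      rw [add_sub_cancel_right, Real.rpow_natCast]
    · rw [Set.indicator_of_notMem (by simpa using hy)]
      unfold expDens
      rw [if_neg hy, zero_mul]
  rw [h1, lintegral_indicator measurableSet_Ioi]
  have hk : (0 : ℝ) < (k : ℝ) + 1 := by positivity
  have hint := Real.GammaIntegral_convergent hk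
  rw [← ofReal_integral_eq_lintegral_ofReal hint]
  · rw [← Real.Gamma_eq_integral hk, Real.Gamma_nat_eq_factorial]
    simp
  · filter_upwards [ae_restrict_mem measurableSet_Ioi] with y hy
    have : (0 : ℝ) < y := hy
    positivity

theorem capa_measurable (r : Fin m → ℕ) (c : Fin n → ℕ) : Measurable (capa r c) := by
  have h : UpperSemicontinuous (capa r c) := by
    unfold capa
    refine upperSemicontinuous_iInf fun b => ?_
    refine Continuous.upperSemicontinuous ?_
    refine ENNReal.continuous_ofReal.comp ?_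
    refine Continuous.div_const ?_ _
    refine continuous_finsetProd _ fun i _ => ?_
    refine Continuous.pow ?_ _
    refine continuous_finsetSum _ fun j _ => ?_
    exact (continuous_apply_apply j i).mul continuous_const
  exact h.measurable

/-- The column density. -/
noncomputable def wcol (u : Fin m → ℝ) : ℝ≥0∞ := ∏ i, expDens (u i)

/-- The matrix density. -/
noncomputable def wmat (t : Fin n → Fin m → ℝ) : ℝ≥0∞ := ∏ j, wcol (t j)

theorem measurable_wcol : Measurable (wcol (m := m)) := by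
  unfold wcol
  exact Finset.measurable_prod _ fun i _ => measurable_expDens.comp (measurable_pi_apply i)

theorem measurable_wmat : Measurable (wmat (m := m) (n := n)) := by
  unfold wmat
  exact Finset.measurable_prod _ fun j _ => measurable_wcol.comp (measurable_pi_apply j)

theorem Ihat_eq (r : Fin m → ℕ) (c : Fin n → ℕ) :
    Ihat r c = (∫⁻ t : Fin n → Fin m → ℝ, wmat t * capa r c t) / ((∏ i, (r i)! : ℕ) : ℝ≥0∞) := rfl

theorem wcol_ne_zero_pos {u : Fin m → ℝ} (h : wcol u ≠ 0) : ∀ i, 0 < u i := by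
  intro i
  by_contra hi
  apply h
  unfold wcol
  refine Finset.prod_eq_zero (mem_univ i) ?_
  unfold expDens
  rw [if_neg hi]

theorem wmat_ne_zero_pos {t : Fin n → Fin m → ℝ} (h : wmat t ≠ 0) : ∀ j i, 0 < t j i := by
  intro j
  apply wcol_ne_zero_pos
  intro hj
  apply h
  unfold wmat
  exact Finset.prod_eq_zero (mem_univ j) hj

theorem wmat_cons (u : Fin m → ℝ) (t : Fin n → Fin m → ℝ) :
    wmat (Fin.cons u t : Fin (n + 1) → Fin m → ℝ) = wcol u * wmat t := by
  unfold wmat
  rw [Fin.prod_univ_succ]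
  simp only [Fin.cons_zero, Fin.cons_succ]

/-- The moment of the column density. -/
theorem lintegral_wcol_mul (x : Fin m → ℕ) :
    ∫⁻ u : Fin m → ℝ, wcol u * ENNReal.ofReal (∏ i, u i ^ x i) = ((∏ i, (x i)! : ℕ) : ℝ≥0∞) := by
  have h1 : ∀ u : Fin m → ℝ, wcol u * ENNReal.ofReal (∏ i, u i ^ x i)
      = wcol u * ∏ i, ENNReal.ofReal (u i ^ x i) := by
    intro u
    by_cases hu : wcol u = 0
    · rw [hu, zero_mul, zero_mul]
    · have hp := wcol_ne_zero_pos hu
      rw [ENNReal.ofReal_prod_of_nonneg fun i _ => pow_nonneg (hp i).le _]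
  simp only [h1]
  unfold wcol
  simp only [← Finset.prod_mul_distrib]
  rw [lintegral_pi_prod m (fun i y => expDens y * ENNReal.ofReal (y ^ x i))
    (fun i => measurable_expDens.mul ((measurable_id.pow_const _).ennreal_ofReal))]
  simp only [lintegral_expDens_pow]
  push_cast
  rfl

/-- The integer constant of the term of `x`. -/
def gx (R x : Fin m → ℕ) : ℕ := ∏ i, ((R i).choose (x i) * (x i)!)

theorem gx_mul {R x : Fin m → ℕ} (hx : ∀ i, x i ≤ R i) :
    gx R x * ∏ i, (R i - x i)! = ∏ i, (R i)! := by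
  unfold gx
  rw [← Finset.prod_mul_distrib]
  refine Finset.prod_congr rfl fun i _ => ?_
  exact Nat.choose_mul_factorial_mul_factorial (hx i)

theorem gx_pos {R x : Fin m → ℕ} (hx : ∀ i, x i ≤ R i) : 0 < gx R x :=
  Finset.prod_pos fun i _ => Nat.mul_pos (Nat.choose_pos (hx i)) (Nat.factorial_pos _)

/-- The integrated form of the capacity recursion, before division. -/
theorem lintegral_rec_gen (R : Fin m → ℕ) (c0 : ℕ) (c' : Fin (n + 1) → ℕ)
    (W : (Fin m → ℕ) → ℝ) (hW : ∀ x ∈ lev R c0, 0 ≤ W x) (A : ℝ) (hA : 0 < A)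
    (hCS : ∀ t S : Fin m → ℝ, (∀ i, 0 < t i) → (∀ i, 0 < S i) → ∀ s : ℝ, 0 < s →
      ∑ x ∈ lev R c0, W x * tm R t S x ≤ A * ((∏ i, (t i * s + S i) ^ R i) / s ^ c0)) :
    ∑ x ∈ lev R c0, ENNReal.ofReal (W x) * ((gx R x : ℕ) : ℝ≥0∞)
        * ∫⁻ t : Fin (n + 1) → Fin m → ℝ, wmat t * capa (fun i => R i - x i) c' t
      ≤ ENNReal.ofReal A
        * ∫⁻ t : Fin (n + 1 + 1) → Fin m → ℝ, wmat t * capa R (Fin.cons c0 c') t := by
  rw [lintegral_cons (E := Fin m → ℝ) (n + 1),
    ← lintegral_const_mul' _ _ ENNReal.ofReal_ne_top]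
  set phi : (Fin m → ℕ) → (Fin m → ℝ) → ℝ≥0∞ :=
    fun x u => wcol u * ENNReal.ofReal (∏ i, u i ^ x i) with hphi
  set psi : (Fin m → ℕ) → (Fin (n + 1) → Fin m → ℝ) → ℝ≥0∞ :=
    fun x t => wmat t * capa (fun i => R i - x i) c' t with hpsi
  set kap : (Fin m → ℕ) → ℝ≥0∞ :=
    fun x => ENNReal.ofReal (W x) * ((∏ i, (R i).choose (x i) : ℕ) : ℝ≥0∞) with hkap
  have hphim : ∀ x, Measurable (phi x) := fun x =>
    measurable_wcol.mul (Measurable.ennreal_ofReal
      (Finset.measurable_prod _ fun i _ => (measurable_pi_apply i).pow_const _))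
  have hpsim : ∀ x, Measurable (psi x) := fun x => measurable_wmat.mul (capa_measurable _ _)
  have hterm : ∀ x, ENNReal.ofReal (W x) * ((gx R x : ℕ) : ℝ≥0∞) * ∫⁻ t, psi x t
      = ∫⁻ p : (Fin m → ℝ) × (Fin (n + 1) → Fin m → ℝ), kap x * (phi x p.1 * psi x p.2)
        ∂((volume : Measure (Fin m → ℝ)).prod (volume : Measure (Fin (n + 1) → Fin m → ℝ))) := by
    intro x
    rw [lintegral_const_mul' _ _ (by
      simp only [hkap]
      exact ENNReal.mul_ne_top ENNReal.ofReal_ne_top (ENNReal.natCast_ne_top _))]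
    have h3 := lintegral_prod_mul (μ := (volume : Measure (Fin m → ℝ)))
      (ν := (volume : Measure (Fin (n + 1) → Fin m → ℝ)))
      (f := phi x) (g := psi x) (hphim x).aemeasurable (hpsim x).aemeasurable
    rw [h3]
    simp only [hphi]
    rw [lintegral_wcol_mul]
    simp only [hkap]
    have h4 : gx R x = (∏ i, (R i).choose (x i)) * ∏ i, (x i)! := by
      unfold gx
      rw [Finset.prod_mul_distrib]
    rw [h4]
    push_cast
    ring
  refine le_trans (le_of_eq (Finset.sum_congr rfl fun x _ => hterm x)) ?_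
  rw [← lintegral_finsetSum _ (fun x _ => by
    have h5 : Measurable fun p : (Fin m → ℝ) × (Fin (n + 1) → Fin m → ℝ) => phi x p.1 * psi x p.2 :=
      ((hphim x).comp measurable_fst).mul ((hpsim x).comp measurable_snd)
    exact h5.const_mul _)]
  refine lintegral_mono fun p => ?_
  obtain ⟨u, t⟩ := p
  rw [wmat_cons]
  by_cases hu : wcol u = 0
  · simp [hphi, hu]
  by_cases ht : wmat t = 0
  · simp [hpsi, ht]
  have hup := wcol_ne_zero_pos hu
  have htp := wmat_ne_zero_pos ht
  have hrec := capa_rec_gen R c0 c' u t hup htp W hW A hA (hCS u · hup)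
  have hterm2 : ∀ x ∈ lev R c0, kap x * (phi x u * psi x t)
      = wcol u * wmat t * (ENNReal.ofReal (W x * ∏ i, (((R i).choose (x i) : ℝ) * u i ^ x i))
        * capa (fun i => R i - x i) c' t) := by
    intro x hx
    simp only [hkap, hphi, hpsi]
    have hY := hW x hx
    have hh : ENNReal.ofReal (W x * ∏ i, (((R i).choose (x i) : ℝ) * u i ^ x i))
        = ENNReal.ofReal (W x) * ((∏ i, (R i).choose (x i) : ℕ) : ℝ≥0∞)
          * ENNReal.ofReal (∏ i, u i ^ x i) := by
      have h9 : ∀ i, 0 ≤ u i ^ x i := fun i => pow_nonneg (hup i).le _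
      rw [Finset.prod_mul_distrib, ← mul_assoc,
        ENNReal.ofReal_mul (mul_nonneg hY (Finset.prod_nonneg fun i _ => by positivity)),
        ENNReal.ofReal_mul hY]
      congr 2
      have h8 : ∏ i, ((R i).choose (x i) : ℝ) = ((∏ i, (R i).choose (x i) : ℕ) : ℝ) := by
        push_cast
        rfl
      rw [h8, ENNReal.ofReal_natCast]
    rw [hh]
    ring
  rw [Finset.sum_congr rfl hterm2]
  rw [← Finset.mul_sum]
  calc _ ≤ wcol u * wmat t * (ENNReal.ofReal A
        * capa R (Fin.cons c0 c') (Fin.cons u t)) := by gcongr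
    _ = _ := by ring

/-- The recursion of the expected capacity over one column, general weight. -/
theorem Ihat_rec_gen (R : Fin m → ℕ) (c0 : ℕ) (c' : Fin (n + 1) → ℕ)
    (W : (Fin m → ℕ) → ℝ) (hW : ∀ x ∈ lev R c0, 0 ≤ W x) (A : ℝ) (hA : 0 < A)
    (hCS : ∀ t S : Fin m → ℝ, (∀ i, 0 < t i) → (∀ i, 0 < S i) → ∀ s : ℝ, 0 < s →
      ∑ x ∈ lev R c0, W x * tm R t S x ≤ A * ((∏ i, (t i * s + S i) ^ R i) / s ^ c0)) :
    ∑ x ∈ lev R c0, ENNReal.ofReal (W x) * Ihat (fun i => R i - x i) c'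
      ≤ ENNReal.ofReal A * Ihat R (Fin.cons c0 c') := by
  have hmain := lintegral_rec_gen R c0 c' W hW A hA hCS
  set Fac : ℝ≥0∞ := ((∏ i, (R i)! : ℕ) : ℝ≥0∞) with hFac
  have hF0 : Fac ≠ 0 := by
    simp only [hFac]
    exact_mod_cast (Finset.prod_pos fun i _ => Nat.factorial_pos _).ne'
  have hFt : Fac ≠ ⊤ := ENNReal.natCast_ne_top _
  have hterm : ∀ x ∈ lev R c0, ENNReal.ofReal (W x) * Ihat (fun i => R i - x i) c'
      = (ENNReal.ofReal (W x) * ((gx R x : ℕ) : ℝ≥0∞)
        * ∫⁻ t : Fin (n + 1) → Fin m → ℝ, wmat t * capa (fun i => R i - x i) c' t) / Fac := by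
    intro x hx
    have hx' := (mem_lev.1 hx).1
    rw [Ihat_eq]
    have hg0 : ((gx R x : ℕ) : ℝ≥0∞) ≠ 0 := by
      exact_mod_cast (gx_pos hx').ne'
    have hgt : ((gx R x : ℕ) : ℝ≥0∞) ≠ ⊤ := ENNReal.natCast_ne_top _
    have hF : Fac = ((∏ i, (R i - x i)! : ℕ) : ℝ≥0∞) * ((gx R x : ℕ) : ℝ≥0∞) := by
      simp only [hFac]
      rw [← gx_mul hx', mul_comm]
      push_cast
      rfl
    rw [hF]
    set J := ∫⁻ t : Fin (n + 1) → Fin m → ℝ, wmat t * capa (fun i => R i - x i) c' t with hJ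
    set a := ENNReal.ofReal (W x) with ha
    set g := ((gx R x : ℕ) : ℝ≥0∞) with hg
    set F := ((∏ i, (R i - x i)! : ℕ) : ℝ≥0∞) with hFF
    calc a * (J / F) = a * J / F := (mul_div_assoc _ _ _).symm
      _ = (a * J * g) / (F * g) := (ENNReal.mul_div_mul_right _ _ hg0 hgt).symm
      _ = (a * g * J) / (F * g) := by
        congr 1
        ring
  rw [Finset.sum_congr rfl hterm, Ihat_eq]
  simp only [div_eq_mul_inv]
  rw [← Finset.sum_mul, ← mul_assoc]
  gcongr

/-- The recursion with the weight `Y'`. -/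
theorem Ihat_rec (R : Fin m → ℕ) (c0 : ℕ) (c' : Fin (n + 1) → ℕ)
    (hc0 : 0 < c0) (hcC : c0 < ∑ i, R i) :
    ∑ x ∈ lev R c0, ENNReal.ofReal (Yp R x) * Ihat (fun i => R i - x i) c'
      ≤ ENNReal.ofReal (Acst (∑ i, R i) c0) * Ihat R (Fin.cons c0 c') :=
  Ihat_rec_gen R c0 c' (Yp R) (fun _ hx => Yp_nonneg (mem_lev.1 hx).1) _ (Acst_pos hc0 hcC)
    fun t S ht hS _ hs => col_step_Acst R t S ht hS c0 hc0 hcC hs

/-- The trivial recursion: the coefficient is at most the capacity. -/
theorem Ihat_rec_one (R : Fin m → ℕ) (c0 : ℕ) (c' : Fin (n + 1) → ℕ) :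
    ∑ x ∈ lev R c0, Ihat (fun i => R i - x i) c' ≤ Ihat R (Fin.cons c0 c') := by
  have h := Ihat_rec_gen R c0 c' (fun _ => 1) (fun _ _ => zero_le_one) 1 one_pos
    fun t S ht hS _ hs => col_step_one R t S ht hS c0 hs
  simpa using h

end Vale.Agent.Lib.P328.Cap
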