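import Vale.Agent.Lib.P328.Cap.Main

/-!
# P328, capacity bound: the final form and finiteness of the expected capacity
-/

namespace Vale.Agent.Lib.P328.Cap

open Finset MeasureTheory
open scoped ENNReal Nat

variable {m n : ℕ}

/-- The integral over a product of functions of the factors, any factor space. -/
theorem lintegral_pi_prod_gen {E : Type} [MeasureSpace E] [SigmaFinite (volume : Measure E)] :
    ∀ (m : ℕ) (f : Fin m → E → ℝ≥0∞), (∀ i, Measurable (f i)) →
    ∫⁻ x : Fin m → E, ∏ i, f i (x i) = ∏ i, ∫⁻ y, f i y := by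
  intro m
  induction m with
  | zero =>
    intro f _
    simp [volume_pi]
  | succ m ih =>
    intro f hf
    rw [lintegral_cons]
    simp only [Fin.prod_univ_succ, Fin.cons_zero, Fin.cons_succ]
    have hg : Measurable fun x : Fin m → E => ∏ i, f i.succ (x i) :=
      Finset.measurable_prod _ fun i _ => (hf i.succ).comp (measurable_pi_apply i)
    have h3 := lintegral_prod_mul (μ := (volume : Measure E)) (ν := (volume : Measure (Fin m → E)))
      (f := f 0) (g := fun x : Fin m → E => ∏ i, f i.succ (x i))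
      (hf 0).aemeasurable hg.aemeasurable
    rw [h3, ih _ fun i => hf i.succ]

/-- The density `exp (-y / 2)` on the positive half line. -/
noncomputable def hdens (y : ℝ) : ℝ≥0∞ := expDens y * ENNReal.ofReal (Real.exp (y / 2))

theorem measurable_hdens : Measurable hdens :=
  measurable_expDens.mul (Real.measurable_exp.comp (measurable_id.div_const _)).ennreal_ofReal

theorem lintegral_hdens_lt_top : ∫⁻ y, hdens y < ⊤ := by
  have h1 : hdens = (Set.Ioi (0 : ℝ)).indicator fun y => ENNReal.ofReal (Real.exp (-(1 / 2) * y)) := by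
    funext y
    unfold hdens expDens
    by_cases hy : 0 < y
    · rw [Set.indicator_of_mem (Set.mem_Ioi.2 hy), if_pos hy,
        ← ENNReal.ofReal_mul (Real.exp_pos _).le, ← Real.exp_add]
      congr 2
      ring
    · rw [Set.indicator_of_notMem (by simpa using hy), if_neg hy, zero_mul]
  rw [h1, lintegral_indicator measurableSet_Ioi]
  have hint : IntegrableOn (fun y => Real.exp (-(1 / 2) * y)) (Set.Ioi 0) :=
    exp_neg_integrableOn_Ioi 0 (by norm_num)
  exact hint.integrable.lintegral_lt_top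

/-- `y ^ k ≤ k! 2 ^ k exp (y / 2)`. -/
theorem pow_le_exp_half {y : ℝ} (hy : 0 ≤ y) (k : ℕ) :
    y ^ k ≤ ((k ! : ℕ) : ℝ) * 2 ^ k * Real.exp (y / 2) := by
  have h := Real.pow_div_factorial_le_exp (y / 2) (by positivity) k
  have hk : (0 : ℝ) < ((k ! : ℕ) : ℝ) := by exact_mod_cast Nat.factorial_pos k
  rw [div_le_iff₀ hk, div_pow, div_le_iff₀ (by positivity)] at h
  nlinarith

/-- The expected capacity is finite. -/
theorem Ihat_lt_top (r : Fin m → ℕ) (c : Fin n → ℕ) : Ihat r c < ⊤ := by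
  rw [Ihat_eq]
  refine ENNReal.div_lt_top ?_ ?_
  swap
  · exact_mod_cast (Finset.prod_pos fun i _ => Nat.factorial_pos _).ne'
  set K : ℝ := ∏ i, (((r i)! : ℕ) : ℝ) * 2 ^ r i with hK
  have hK0 : 0 ≤ K := Finset.prod_nonneg fun i _ => by positivity
  have hbound : ∀ t : Fin n → Fin m → ℝ, wmat t * capa r c t
      ≤ ENNReal.ofReal K * ∏ j, ∏ i, hdens (t j i) := by
    intro t
    by_cases ht : wmat t = 0
    · rw [ht, zero_mul]
      exact bot_le
    have htp := wmat_ne_zero_pos ht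
    have hcapa : capa r c t ≤ ENNReal.ofReal (K * ∏ j, ∏ i, Real.exp (t j i / 2)) := by
      unfold capa
      refine (iInf_le _ ⟨fun _ => 1, fun _ => one_pos⟩).trans ?_
      apply ENNReal.ofReal_le_ofReal
      simp only [mul_one, one_pow, Finset.prod_const_one, div_one]
      have e1 : ∏ j, ∏ i, Real.exp (t j i / 2) = ∏ i, Real.exp ((∑ j, t j i) / 2) := by
        rw [Finset.prod_comm]
        refine Finset.prod_congr rfl fun i _ => ?_
        rw [← Real.exp_sum, Finset.sum_div]
      rw [e1, hK, ← Finset.prod_mul_distrib]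
      refine Finset.prod_le_prod (fun i _ => ?_) fun i _ => ?_
      · exact pow_nonneg (Finset.sum_nonneg fun j _ => (htp j i).le) _
      · exact pow_le_exp_half (Finset.sum_nonneg fun j _ => (htp j i).le) _
    calc wmat t * capa r c t
        ≤ wmat t * ENNReal.ofReal (K * ∏ j, ∏ i, Real.exp (t j i / 2)) := by gcongr
      _ = ENNReal.ofReal K * ∏ j, ∏ i, hdens (t j i) := by
          have e2 : ENNReal.ofReal (∏ j, ∏ i, Real.exp (t j i / 2))
              = ∏ j, ∏ i, ENNReal.ofReal (Real.exp (t j i / 2)) := by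
            rw [ENNReal.ofReal_prod_of_nonneg
              (fun j _ => Finset.prod_nonneg fun i _ => (Real.exp_pos _).le)]
            exact Finset.prod_congr rfl fun j _ =>
              ENNReal.ofReal_prod_of_nonneg fun i _ => (Real.exp_pos _).le
          rw [ENNReal.ofReal_mul hK0, e2]
          unfold wmat wcol hdens
          simp only [Finset.prod_mul_distrib]
          ring
  refine ne_of_lt (lt_of_le_of_lt (lintegral_mono hbound) ?_)
  have hg : Measurable fun u : Fin m → ℝ => ∏ i, hdens (u i) :=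
    Finset.measurable_prod _ fun i _ => measurable_hdens.comp (measurable_pi_apply i)
  have hm2 : Measurable fun t : Fin n → Fin m → ℝ => ∏ j, ∏ i, hdens (t j i) :=
    Finset.measurable_prod _ fun j _ => hg.comp (measurable_pi_apply j)
  rw [lintegral_const_mul _ hm2]
  refine ENNReal.mul_lt_top ENNReal.ofReal_lt_top ?_
  rw [lintegral_pi_prod_gen (E := Fin m → ℝ) n (fun _ u => ∏ i, hdens (u i)) (fun _ => hg)]
  refine ENNReal.prod_lt_top fun j _ => ?_
  rw [lintegral_pi_prod_gen (E := ℝ) m (fun _ y => hdens y) (fun _ => measurable_hdens)]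
  exact ENNReal.prod_lt_top fun i _ => lintegral_hdens_lt_top

/-- The bound on the constant. -/
theorem Gk_le (B : ℝ) (hB : 1 ≤ B) (k : ℕ) (n : ℕ) :
    Gk B k (n + 1) ≤ B ^ (2 * k - 2) * ((n + 1 : ℕ) : ℝ) ^ (k + 1) * (((n + 1 : ℕ) : ℝ) + 1) / 2 := by
  unfold Gk
  have h1 : B ^ (min (n + 1 - 1) (2 * k - 2)) ≤ B ^ (2 * k - 2) :=
    pow_le_pow_right₀ hB (min_le_right _ _)
  have h2 : ((Nat.choose (max (n + 1) k) k : ℕ) : ℝ) ≤ ((n + 1 : ℕ) : ℝ) ^ k := by
    by_cases hc : k ≤ n + 1
    · rw [max_eq_left hc]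
      exact_mod_cast Nat.choose_le_pow _ _
    · rw [max_eq_right (by omega), Nat.choose_self]
      push_cast
      exact one_le_pow₀ (by
        have : (0 : ℝ) ≤ n := by positivity
        linarith)
  have hB0 : 0 < B := by linarith
  have h3 : B ^ (min (n + 1 - 1) (2 * k - 2)) * ((Nat.choose (max (n + 1) k) k : ℕ) : ℝ)
      ≤ B ^ (2 * k - 2) * ((n + 1 : ℕ) : ℝ) ^ k :=
    mul_le_mul h1 h2 (by positivity) (by positivity)
  have h4 : (0 : ℝ) ≤ ((n + 1 : ℕ) : ℝ) * (((n + 1 : ℕ) : ℝ) + 1) / 2 := by positivity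
  calc _ ≤ B ^ (2 * k - 2) * ((n + 1 : ℕ) : ℝ) ^ k * (((n + 1 : ℕ) : ℝ) * (((n + 1 : ℕ) : ℝ) + 1) / 2) :=
        mul_le_mul_of_nonneg_right h3 h4
    _ = _ := by ring

/-- The final bound, for `n` columns. -/
theorem card_tabs_le (hm : 0 < m) (hn : 0 < n) (k : ℕ) (hk : 0 < k) (r : Fin m → ℕ) (c : Fin n → ℕ)
    (hsum : ∑ i, r i = ∑ j, c j) (hc : Monotone c) (hcm : ∀ j, m ≤ k * c j) :
    ((tabs r c).card : ℝ≥0∞)
      ≤ ENNReal.ofReal ((((∑ j, c j : ℕ) : ℝ) + 1) ^ (2 * k - 2) * (n : ℝ) ^ (k + 1) * ((n : ℝ) + 1) / 2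
          * betaC c) * Ihat r c := by
  obtain ⟨n', rfl⟩ : ∃ n', n = n' + 1 := ⟨n - 1, by omega⟩
  have hB : (1 : ℝ) ≤ ((∑ j, c j : ℕ) : ℝ) + 1 := by
    have : (0 : ℝ) ≤ ((∑ j, c j : ℕ) : ℝ) := by positivity
    linarith
  refine (main_bound_k hm k hk _ hB n' c hc hcm r hsum le_rfl).trans ?_
  gcongr ENNReal.ofReal ?_ * _
  exact mul_le_mul_of_nonneg_right (Gk_le _ hB k n') (betaC_nonneg c)

end Vale.Agent.Lib.P328.Cap
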