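import Vale.Agent.Lib.P328.Cap.PB1

/-!
# P328, capacity bound: the two column lemmas on a slice of a box

For a vector `s` and `2 * ρ ≤ ∑ s`, on the slice `{x ≤ s, ∑ x = ρ}` and for every coordinate `i`:
`∑ (2 x i - s i) ≤ 0` and `∑ (3 (x i)^2 - (2 s i + 1) x i) ≤ 0`.
The level sizes of a box are symmetric and unimodal, and this gives the weights on `x i`.
-/

namespace Vale.Agent.Lib.P328.Cap

open Finset

variable {m : ℕ}

/-- Symmetric about `D / 2` and increasing below `D / 2`. -/
def SU (L : ℤ → ℝ) (D : ℤ) : Prop := (∀ l, L (D - l) = L l) ∧ ∀ l, 2 * l ≤ D → L (l - 1) ≤ L l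

theorem SU.mono_low {L : ℤ → ℝ} {D : ℤ} (h : SU L D) {a b : ℤ} (hab : a ≤ b) (hb : 2 * b ≤ D) :
    L a ≤ L b := by
  induction b, hab using Int.leInduction with
  | base => exact le_rfl
  | succ k hk ih =>
    have h1 := h.2 (k + 1) hb
    simp only [add_sub_cancel_right] at h1
    exact (ih (by omega)).trans h1

theorem SU.mono {L : ℤ → ℝ} {D : ℤ} (h : SU L D) {a b : ℤ} (habs : |2 * b - D| ≤ |2 * a - D|) :
    L a ≤ L b := by
  by_cases ha : 2 * a ≤ D
  · by_cases hb : 2 * b ≤ D
    · rw [abs_of_nonpos (by omega), abs_of_nonpos (by omega)] at habs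
      exact h.mono_low (by omega) hb
    · rw [abs_of_nonneg (by omega), abs_of_nonpos (by omega)] at habs
      rw [← h.1 b]
      exact h.mono_low (by omega) (by omega)
  · by_cases hb : 2 * b ≤ D
    · rw [abs_of_nonpos (by omega), abs_of_nonneg (by omega)] at habs
      rw [← h.1 a]
      exact h.mono_low (by omega) hb
    · rw [abs_of_nonneg (by omega), abs_of_nonneg (by omega)] at habs
      rw [← h.1 a, ← h.1 b]
      exact h.mono_low (by omega) (by omega)

theorem SU.conv {L : ℤ → ℝ} {D : ℤ} (h : SU L D) (s : ℕ) :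
    SU (fun l => ∑ v ∈ range (s + 1), L (l - v)) (D + s) := by
  constructor
  · intro l
    show ∑ v ∈ range (s + 1), L (D + s - l - v) = ∑ v ∈ range (s + 1), L (l - v)
    rw [← Finset.sum_range_reflect]
    refine Finset.sum_congr rfl fun v hv => ?_
    have hv' : v ≤ s := by
      have := Finset.mem_range.1 hv
      omega
    have h1 : ((s + 1 - 1 - v : ℕ) : ℤ) = (s : ℤ) - v := by
      rw [Nat.add_sub_cancel, Nat.cast_sub hv']
    rw [h1, ← h.1 (l - v)]
    congr 1
    ring
  · intro l hl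
    show ∑ v ∈ range (s + 1), L (l - 1 - v) ≤ ∑ v ∈ range (s + 1), L (l - v)
    have h1 : ∑ v ∈ range (s + 1), L (l - v) + L (l - (s + 1 : ℕ))
        = ∑ v ∈ range (s + 1 + 1), L (l - v) := by
      rw [Finset.sum_range_succ _ (s + 1)]
    have h2 : ∑ v ∈ range (s + 1 + 1), L (l - v)
        = ∑ v ∈ range (s + 1), L (l - 1 - v) + L l := by
      rw [Finset.sum_range_succ' _ (s + 1)]
      congr 1
      · refine Finset.sum_congr rfl fun v _ => ?_
        congr 1
        push_cast
        ring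
      · simp
    have h3 : L (l - (s + 1 : ℕ)) ≤ L l := by
      apply h.mono
      push_cast
      by_cases hc : 2 * l - D ≤ 0
      · rw [abs_of_nonpos hc, abs_of_nonpos (by omega)]
        omega
      · rw [abs_of_nonneg (by omega), abs_of_nonpos (by omega)]
        omega
    linarith

/-- The number of vectors of the box at a given level. -/
noncomputable def lvl (s : Fin m → ℕ) (l : ℤ) : ℝ :=
  (((box s).filter fun x => ((∑ i, x i : ℕ) : ℤ) = l).card : ℝ)

/-- Splitting the box along a coordinate. -/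
theorem box_split (s : Fin m → ℕ) (j : Fin m) (F : (Fin m → ℕ) → ℝ) :
    ∑ x ∈ box s, F x
      = ∑ v ∈ range (s j + 1), ∑ y ∈ box (Function.update s j 0), F (Function.update y j v) := by
  rw [← Finset.sum_product']
  refine Finset.sum_nbij' (fun x => (x j, Function.update x j 0)) (fun p => Function.update p.2 j p.1)
    ?_ ?_ ?_ ?_ ?_
  · intro x hx
    have hx' := mem_box.1 hx
    simp only [mem_product, mem_range]
    refine ⟨by have := hx' j; omega, mem_box.2 fun i => ?_⟩
    by_cases hi : i = j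
    · subst hi; simp
    · simp only [Function.update_of_ne hi]; exact hx' i
  · intro p hp
    simp only [mem_product, mem_range] at hp
    refine mem_box.2 fun i => ?_
    by_cases hi : i = j
    · subst hi; simp only [Function.update_self]; omega
    · simp only [Function.update_of_ne hi]
      have := mem_box.1 hp.2 i
      simpa [Function.update_of_ne hi] using this
  · intro x _
    simp
  · intro p hp
    simp only [mem_product, mem_range] at hp
    have h0 : p.2 j = 0 := by
      have := mem_box.1 hp.2 j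
      simpa using this
    ext
    · simp
    · simp only [Function.update_idem]
      rename_i i
      by_cases hi : i = j
      · subst hi; simp [h0]
      · simp [Function.update_of_ne hi]
  · intro x _
    simp

theorem lvl_split (s : Fin m → ℕ) (j : Fin m) (l : ℤ) :
    lvl s l = ∑ v ∈ range (s j + 1), lvl (Function.update s j 0) (l - v) := by
  have h1 : ∀ t : Fin m → ℕ, ∀ k : ℤ, lvl t k
      = ∑ x ∈ box t, if ((∑ i, x i : ℕ) : ℤ) = k then (1 : ℝ) else 0 := by
    intro t k
    unfold lvl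
    rw [Finset.card_filter]
    push_cast
    rfl
  rw [h1, box_split s j]
  refine Finset.sum_congr rfl fun v _ => ?_
  rw [h1]
  refine Finset.sum_congr rfl fun y hy => ?_
  have h0 : y j = 0 := by
    have := mem_box.1 hy j
    simpa using this
  have h2 := sum_update y j v
  rw [h0, add_zero] at h2
  rw [h2]
  push_cast
  have : ((∑ i, y i : ℕ) : ℤ) + v = l ↔ ((∑ i, y i : ℕ) : ℤ) = l - v := by
    constructor <;> intro h <;> omega
  push_cast at this
  simp only [this]

theorem su_lvl : ∀ (J : Finset (Fin m)) (s : Fin m → ℕ), (∀ j, j ∉ J → s j = 0) →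
    SU (lvl s) ((∑ i, s i : ℕ) : ℤ) := by
  intro J
  induction J using Finset.induction_on with
  | empty =>
    intro s hs
    have hs0 : s = fun _ => 0 := by
      funext j
      exact hs j (by simp)
    subst hs0
    have hbox : box (fun _ : Fin m => 0) = {fun _ => 0} := by
      ext x
      simp only [mem_box, mem_singleton, Nat.le_zero]
      exact ⟨fun h => funext h, fun h i => by rw [h]⟩
    have hl : ∀ l : ℤ, lvl (fun _ : Fin m => 0) l = if l = 0 then 1 else 0 := by
      intro l
      unfold lvl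
      rw [hbox, Finset.filter_singleton]
      by_cases h : l = 0
      · simp [h]
      · have : ¬ (0 : ℤ) = l := fun h2 => h h2.symm
        simp [h, this]
    constructor
    · intro l
      simp only [hl]
      simp
    · intro l hl2
      simp only [hl]
      simp only [Finset.sum_const_zero, Nat.cast_zero] at hl2
      rw [if_neg (by omega)]
      split_ifs <;> norm_num
  | insert j J hj ih =>
    intro s hs
    have h1 := ih (Function.update s j 0) (by
      intro k hk
      by_cases hkj : k = j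
      · subst hkj; simp
      · rw [Function.update_of_ne hkj]
        exact hs k (by simp [hkj, hk]))
    have h2 := h1.conv (s j)
    have h3 : lvl s = fun l => ∑ v ∈ range (s j + 1), lvl (Function.update s j 0) (l - v) :=
      funext fun l => lvl_split s j l
    rw [h3]
    have h4 := sum_update s j 0
    have h5 : ((∑ i, s i : ℕ) : ℤ) = ((∑ i, Function.update s j 0 i : ℕ) : ℤ) + (s j : ℤ) := by
      omega
    rw [h5]
    exact h2

/-- The layer cake principle on a finite set. -/
theorem layer (n : ℕ) : ∀ (I : Finset ℕ) (_ : I.card = n) (w φ : ℕ → ℝ), (∀ u ∈ I, 0 ≤ w u) →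
    (∀ θ, 0 < θ → ∑ u ∈ I.filter (fun u => θ ≤ w u), φ u ≤ 0) →
    ∑ u ∈ I, w u * φ u ≤ 0 := by
  induction n with
  | zero =>
    intro I hI w φ _ _
    rw [Finset.card_eq_zero.1 hI]
    simp
  | succ n ih =>
    intro I hI w φ hw h
    have hne : I.Nonempty := by
      rw [← Finset.card_pos]
      omega
    obtain ⟨u0, hu0, hmin⟩ := Finset.exists_min_image I w hne
    set θ0 := w u0 with hθ0
    have h0 : 0 ≤ θ0 := hw u0 hu0
    have hsplit : ∑ u ∈ I, w u * φ u
        = θ0 * ∑ u ∈ I, φ u + ∑ u ∈ I.erase u0, (w u - θ0) * φ u := by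
      have : ∑ u ∈ I, (w u - θ0) * φ u = ∑ u ∈ I.erase u0, (w u - θ0) * φ u := by
        rw [← Finset.add_sum_erase I _ hu0, ← hθ0]
        simp
      rw [← this, Finset.mul_sum, ← Finset.sum_add_distrib]
      refine Finset.sum_congr rfl fun u _ => ?_
      ring
    have hfirst : θ0 * ∑ u ∈ I, φ u ≤ 0 := by
      rcases h0.eq_or_lt with h1 | h1
      · rw [← h1, zero_mul]
      · have h2 := h θ0 h1
        have h3 : I.filter (fun u => θ0 ≤ w u) = I :=
          Finset.filter_true_of_mem fun u hu => hmin u hu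
        rw [h3] at h2
        exact mul_nonpos_of_nonneg_of_nonpos h1.le h2
    have hsecond : ∑ u ∈ I.erase u0, (w u - θ0) * φ u ≤ 0 := by
      refine ih (I.erase u0) (by rw [Finset.card_erase_of_mem hu0]; omega)
        (fun u => w u - θ0) φ ?_ ?_
      · intro u hu
        have := hmin u (Finset.mem_of_mem_erase hu)
        show 0 ≤ w u - θ0
        linarith
      · intro θ hθ
        have h3 : (I.erase u0).filter (fun u => θ ≤ w u - θ0)
            = I.filter (fun u => θ + θ0 ≤ w u) := by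
          ext u
          simp only [mem_filter, mem_erase]
          constructor
          · rintro ⟨⟨_, h5⟩, h6⟩
            exact ⟨h5, by linarith⟩
          · rintro ⟨h5, h6⟩
            refine ⟨⟨?_, h5⟩, by linarith⟩
            rintro rfl
            linarith
        rw [h3]
        exact h (θ + θ0) (by linarith)
    rw [hsplit]
    linarith

/-- A set of integers closed under moving towards `τ / 2` is an interval of a specific form. -/
theorem closed_sum (s0 : ℕ) (τ : ℤ) (hτ : τ ≤ s0) (φ : ℕ → ℝ)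
    (I1 : ∀ b, b ≤ s0 → ∑ u ∈ Icc 0 b, φ u ≤ 0)
    (I2 : ∀ a b : ℕ, 1 ≤ a → a ≤ b → (a : ℤ) + b = τ → ∑ u ∈ Icc a b, φ u ≤ 0)
    (S : Finset ℕ) (hS : S ⊆ range (s0 + 1))
    (hcl : ∀ u ∈ S, ∀ v ∈ range (s0 + 1), |2 * (v : ℤ) - τ| ≤ |2 * (u : ℤ) - τ| → v ∈ S) :
    ∑ u ∈ S, φ u ≤ 0 := by
  rcases S.eq_empty_or_nonempty with rfl | hne
  · simp
  set a := S.min' hne with ha
  set b := S.max' hne with hb
  have haS : a ∈ S := S.min'_mem hne
  have hbS : b ∈ S := S.max'_mem hne
  have hale : ∀ u ∈ S, a ≤ u := fun u hu => S.min'_le u hu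
  have hleb : ∀ u ∈ S, u ≤ b := fun u hu => S.le_max' u hu
  have hbs0 : b ≤ s0 := by
    have := Finset.mem_range.1 (hS hbS)
    omega
  have hab : a ≤ b := hale b hbS
  have hIcc : S = Icc a b := by
    ext v
    simp only [mem_Icc]
    constructor
    · exact fun hv => ⟨hale v hv, hleb v hv⟩
    · rintro ⟨h1, h2⟩
      have hv : v ∈ range (s0 + 1) := Finset.mem_range.2 (by omega)
      by_cases hc : |2 * (v : ℤ) - τ| ≤ |2 * (a : ℤ) - τ|
      · exact hcl a haS v hv hc
      · refine hcl b hbS v hv ?_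
        push Not at hc
        have h3 : (a : ℤ) ≤ v := by exact_mod_cast h1
        have h4 : (v : ℤ) ≤ b := by exact_mod_cast h2
        rw [abs_le]
        rcases abs_cases (2 * (v : ℤ) - τ) with ⟨h5, _⟩ | ⟨h5, _⟩ <;>
          rcases abs_cases (2 * (a : ℤ) - τ) with ⟨h6, _⟩ | ⟨h6, _⟩ <;>
          rcases abs_cases (2 * (b : ℤ) - τ) with ⟨h7, _⟩ | ⟨h7, _⟩ <;>
          (constructor <;> omega)
  rw [hIcc]
  rcases Nat.eq_zero_or_pos a with h0 | h0
  · rw [h0]
    exact I1 b hbs0
  refine I2 a b h0 hab ?_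
  have ha1 : a - 1 ∉ S := by
    intro h
    have := hale _ h
    omega
  have ha1r : a - 1 ∈ range (s0 + 1) := Finset.mem_range.2 (by omega)
  have hcast : ((a - 1 : ℕ) : ℤ) = (a : ℤ) - 1 := by
    rw [Nat.cast_sub h0]
    simp
  have hh1 : 2 * (a : ℤ) - τ ≤ 0 := by
    by_contra hcon
    push Not at hcon
    apply ha1
    refine hcl a haS _ ha1r ?_
    rw [hcast]
    rw [abs_of_nonneg (by omega : (0 : ℤ) ≤ 2 * (a : ℤ) - τ)]
    rw [abs_le]
    constructor <;> omega
  have hvdef : (((τ - a).toNat : ℕ) : ℤ) = τ - a := Int.toNat_of_nonneg (by omega)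
  have hvS : (τ - a).toNat ∈ S := by
    refine hcl a haS _ (Finset.mem_range.2 ?_) ?_
    · have : (((τ - a).toNat : ℕ) : ℤ) < (s0 : ℤ) + 1 := by omega
      omega
    · rw [hvdef]
      rw [abs_of_nonpos hh1, abs_of_nonneg (by omega)]
      omega
  have hble := hleb _ hvS
  have hbge : (b : ℤ) ≥ τ - a := by
    rw [← hvdef]
    exact_mod_cast hble
  by_contra hne2
  have hb2 : (b : ℤ) ≥ τ - a + 1 := by omega
  apply ha1
  refine hcl b hbS _ ha1r ?_
  rw [hcast]
  rw [abs_of_nonpos (by omega), abs_of_nonneg (by omega)]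
  omega

/-- Sums over slices, as weighted sums over one coordinate. -/
theorem lev_sum_eq (s : Fin m → ℕ) (ρ : ℕ) (i : Fin m) (φ : ℕ → ℝ) :
    ∑ x ∈ lev s ρ, φ (x i)
      = ∑ u ∈ range (s i + 1), lvl (Function.update s i 0) ((ρ : ℤ) - u) * φ u := by
  unfold lev
  rw [Finset.sum_filter, box_split s i]
  refine Finset.sum_congr rfl fun u _ => ?_
  unfold lvl
  rw [Finset.card_filter]
  push_cast
  rw [Finset.sum_mul]
  refine Finset.sum_congr rfl fun y hy => ?_
  have h0 : y i = 0 := by
    have := mem_box.1 hy i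
    simpa using this
  have h2 := sum_update y i u
  rw [h0, add_zero] at h2
  rw [h2]
  simp only [Function.update_self]
  by_cases h : ∑ j, y j + u = ρ
  · have h3 : ((∑ j, (y j : ℤ))) = (ρ : ℤ) - u := by
      have : ((∑ j, y j + u : ℕ) : ℤ) = (ρ : ℤ) := by rw [h]
      push_cast at this
      linarith
    simp [h, h3]
  · have h3 : ¬ ((∑ j, (y j : ℤ))) = (ρ : ℤ) - u := by
      intro h4
      apply h
      have : ((∑ j, y j + u : ℕ) : ℤ) = (ρ : ℤ) := by
        push_cast
        linarith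
      exact_mod_cast this
    simp [h, h3]

/-- The master inequality on a slice of a box. -/
theorem slice_phi (s : Fin m → ℕ) (ρ : ℕ) (hρ : 2 * ρ ≤ ∑ j, s j) (i : Fin m) (φ : ℕ → ℝ)
    (I1 : ∀ b, b ≤ s i → ∑ u ∈ Icc 0 b, φ u ≤ 0)
    (I2 : ∀ a b : ℕ, 1 ≤ a → a + b ≤ s i → a ≤ b → ∑ u ∈ Icc a b, φ u ≤ 0) :
    ∑ x ∈ lev s ρ, φ (x i) ≤ 0 := by
  rw [lev_sum_eq]
  set s' := Function.update s i 0 with hs'
  set D : ℤ := ((∑ j, s' j : ℕ) : ℤ) with hD
  have hSU : SU (lvl s') D := su_lvl Finset.univ s' (fun j hj => absurd (mem_univ j) hj)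
  have hDeq : D + (s i : ℤ) = ((∑ j, s j : ℕ) : ℤ) := by
    have : ∑ j, s' j + s i = ∑ j, s j + 0 := sum_update s i 0
    omega
  set τ : ℤ := 2 * (ρ : ℤ) - D with hτ
  have hτle : τ ≤ s i := by
    have : (2 * ρ : ℤ) ≤ ((∑ j, s j : ℕ) : ℤ) := by exact_mod_cast hρ
    omega
  refine layer _ _ rfl _ φ ?_ ?_
  · intro u _
    unfold lvl
    positivity
  intro θ _
  refine closed_sum (s i) τ hτle φ I1 ?_ _ (Finset.filter_subset _ _) ?_
  · intro a b h1 h2 h3
    refine I2 a b h1 ?_ h2
    have : ((a + b : ℕ) : ℤ) ≤ s i := by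
      push_cast
      omega
    exact_mod_cast this
  · intro u hu v hv hle
    simp only [mem_filter] at hu ⊢
    refine ⟨hv, hu.2.trans ?_⟩
    apply hSU.mono
    have e1 : 2 * ((ρ : ℤ) - v) - D = -(2 * (v : ℤ) - τ) := by
      rw [hτ]
      ring
    have e2 : 2 * ((ρ : ℤ) - u) - D = -(2 * (u : ℤ) - τ) := by
      rw [hτ]
      ring
    rw [e1, e2, abs_neg, abs_neg]
    exact hle

theorem sum_Icc_share (s0 a b : ℕ) (hab : a ≤ b) :
    ∑ u ∈ Icc a b, (2 * (u : ℝ) - s0) = ((b : ℝ) - a + 1) * ((a : ℝ) + b - s0) := by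
  induction b, hab using Nat.le_induction with
  | base =>
    simp
    ring
  | succ k hk ih =>
    rw [Finset.sum_Icc_succ_top (by omega), ih]
    push_cast
    ring

theorem sum_Icc_sm (s0 a b : ℕ) (hab : a ≤ b) :
    ∑ u ∈ Icc a b, (3 * (u : ℝ) ^ 2 - (2 * s0 + 1) * u)
      = (b : ℝ) * (b + 1) * (b - s0) - ((a : ℝ) - 1) * a * (a - 1 - s0) := by
  induction b, hab using Nat.le_induction with
  | base =>
    simp
    ring
  | succ k hk ih =>
    rw [Finset.sum_Icc_succ_top (by omega), ih]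
    push_cast
    ring

/-- The share lemma on a slice. -/
theorem slice_share (s : Fin m → ℕ) (ρ : ℕ) (hρ : 2 * ρ ≤ ∑ j, s j) (i : Fin m) :
    ∑ x ∈ lev s ρ, (2 * (x i : ℝ) - s i) ≤ 0 := by
  refine slice_phi s ρ hρ i (fun u => 2 * (u : ℝ) - s i) ?_ ?_
  · intro b hb
    rw [sum_Icc_share _ _ _ (Nat.zero_le b)]
    have h1 : (b : ℝ) ≤ s i := by exact_mod_cast hb
    have h2 : (0 : ℝ) ≤ b := by positivity
    push_cast
    nlinarith
  · intro a b _ h2 h3
    rw [sum_Icc_share _ _ _ h3]
    have h4 : (a : ℝ) + b ≤ s i := by exact_mod_cast h2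
    have h5 : (a : ℝ) ≤ b := by exact_mod_cast h3
    nlinarith

/-- The second moment lemma on a slice. -/
theorem slice_sm (s : Fin m → ℕ) (ρ : ℕ) (hρ : 2 * ρ ≤ ∑ j, s j) (i : Fin m) :
    ∑ x ∈ lev s ρ, (3 * (x i : ℝ) ^ 2 - (2 * s i + 1) * x i) ≤ 0 := by
  refine slice_phi s ρ hρ i (fun u => 3 * (u : ℝ) ^ 2 - (2 * s i + 1) * u) ?_ ?_
  · intro b hb
    rw [sum_Icc_sm _ _ _ (Nat.zero_le b)]
    have h1 : (b : ℝ) ≤ s i := by exact_mod_cast hb
    have h2 : (0 : ℝ) ≤ b := by positivity
    push_cast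
    have h3 : (0 : ℝ) ≤ (b : ℝ) * (b + 1) := by positivity
    nlinarith
  · intro a b h1 h2 h3
    rw [sum_Icc_sm _ _ _ h3]
    have h4 : (a : ℝ) + b ≤ s i := by exact_mod_cast h2
    have h5 : (a : ℝ) ≤ b := by exact_mod_cast h3
    have h6 : (1 : ℝ) ≤ a := by exact_mod_cast h1
    have e : (b : ℝ) * (b + 1) * (b - s i) - ((a : ℝ) - 1) * a * (a - 1 - s i)
        = (a : ℝ) * (b + 1) * (a - 1 - b) - ((s i : ℝ) - a - b) * (a + b) * (b - a + 1) := by
      ring
    rw [e]
    have h7 : 0 ≤ (a : ℝ) * (b + 1) * (b + 1 - a) := by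
      have : 0 ≤ (b : ℝ) + 1 - a := by linarith
      positivity
    have h8 : 0 ≤ ((s i : ℝ) - a - b) * (a + b) * (b - a + 1) := by
      have h9 : 0 ≤ (s i : ℝ) - a - b := by linarith
      have h10 : 0 ≤ (b : ℝ) - a + 1 := by linarith
      positivity
    nlinarith

end Vale.Agent.Lib.P328.Cap
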