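import Vale.Agent.Lib.P328.Cap.PB4

/-!
# P328, capacity bound: the one column step

For positive `t`, `S`, `s`:
`∑_{|x| = c} Y'(x) ∏ binom(R i, x i) t i ^ x i S i ^ (R i - x i)
   ≤ (1 - c/C) c P(Bin(C, c/C) = c) ∏ (t i s + S i) ^ R i / s ^ c`.
-/

namespace Vale.Agent.Lib.P328.Cap

open Finset

variable {m : ℕ}

/-- The saddle point. -/
theorem exists_saddle (R : Fin m → ℕ) (t S : Fin m → ℝ) (ht : ∀ i, 0 < t i) (hS : ∀ i, 0 < S i)
    (c : ℕ) (hc : 0 < c) (hcC : c < ∑ i, R i) :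
    ∃ s : ℝ, 0 < s ∧ ∑ i, (R i : ℝ) * (t i * s / (t i * s + S i)) = c := by
  set g : ℝ → ℝ := fun θ => ∑ i, (R i : ℝ) * (t i * Real.exp θ / (t i * Real.exp θ + S i)) with hg
  have hcont : Continuous g := by
    refine continuous_finsetSum _ fun i _ => ?_
    refine continuous_const.mul ?_
    refine Continuous.div (by fun_prop) (by fun_prop) fun θ => ?_
    have := ht i
    have := hS i
    have := Real.exp_pos θ
    positivity
  set K : ℝ := ∑ i, (R i : ℝ) * (t i / S i) with hK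
  have hK0 : 0 ≤ K := Finset.sum_nonneg fun i _ => by
    have := ht i
    have := hS i
    positivity
  set K2 : ℝ := ∑ i, (R i : ℝ) * (S i / t i) with hK2
  have hK20 : 0 ≤ K2 := Finset.sum_nonneg fun i _ => by
    have := ht i
    have := hS i
    positivity
  have hcr : (0 : ℝ) < c := by exact_mod_cast hc
  have hlow : ∃ θ, g θ ≤ c := by
    set s₁ : ℝ := c / (K + 1) with hs₁
    have hs₁0 : 0 < s₁ := by positivity
    refine ⟨Real.log s₁, ?_⟩
    simp only [hg, Real.exp_log hs₁0]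
    have h1 : ∀ i, (R i : ℝ) * (t i * s₁ / (t i * s₁ + S i)) ≤ s₁ * ((R i : ℝ) * (t i / S i)) := by
      intro i
      have h2 := ht i
      have h3 := hS i
      have h4 : t i * s₁ / (t i * s₁ + S i) ≤ s₁ * (t i / S i) := by
        rw [div_le_iff₀ (by positivity)]
        have : s₁ * (t i / S i) * (t i * s₁ + S i) = t i * s₁ + s₁ * (t i / S i) * (t i * s₁) := by
          field_simp
          ring
        rw [this]
        have : 0 ≤ s₁ * (t i / S i) * (t i * s₁) := by positivity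
        linarith
      have h5 : (0 : ℝ) ≤ R i := by positivity
      nlinarith
    calc ∑ i, (R i : ℝ) * (t i * s₁ / (t i * s₁ + S i))
        ≤ ∑ i, s₁ * ((R i : ℝ) * (t i / S i)) := Finset.sum_le_sum fun i _ => h1 i
      _ = s₁ * K := by rw [← Finset.mul_sum]
      _ ≤ c := by
        rw [hs₁, div_mul_eq_mul_div, div_le_iff₀ (by positivity)]
        nlinarith
  have hhigh : ∃ θ, (c : ℝ) ≤ g θ := by
    set s₂ : ℝ := K2 + 1 with hs₂
    have hs₂0 : 0 < s₂ := by positivity
    refine ⟨Real.log s₂, ?_⟩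
    simp only [hg, Real.exp_log hs₂0]
    have h1 : ∀ i, (R i : ℝ) - (1 / s₂) * ((R i : ℝ) * (S i / t i))
        ≤ (R i : ℝ) * (t i * s₂ / (t i * s₂ + S i)) := by
      intro i
      have h2 := ht i
      have h3 := hS i
      have h5 : (0 : ℝ) ≤ R i := by positivity
      have h4 : 1 - (1 / s₂) * (S i / t i) ≤ t i * s₂ / (t i * s₂ + S i) := by
        rw [le_div_iff₀ (by positivity)]
        have : (1 - (1 / s₂) * (S i / t i)) * (t i * s₂ + S i)
            = t i * s₂ - (1 / s₂) * (S i / t i) * S i := by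
          field_simp
          ring
        rw [this]
        have : 0 ≤ (1 / s₂) * (S i / t i) * S i := by positivity
        linarith
      nlinarith
    have h6 : (((∑ i, R i : ℕ) : ℝ)) - (1 / s₂) * K2
        ≤ ∑ i, (R i : ℝ) * (t i * s₂ / (t i * s₂ + S i)) := by
      calc (((∑ i, R i : ℕ) : ℝ)) - (1 / s₂) * K2
          = ∑ i, ((R i : ℝ) - (1 / s₂) * ((R i : ℝ) * (S i / t i))) := by
            rw [Finset.sum_sub_distrib, ← Finset.mul_sum]
            push_cast
            rfl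
        _ ≤ _ := Finset.sum_le_sum fun i _ => h1 i
    have h7 : (1 / s₂) * K2 ≤ 1 := by
      rw [one_div, inv_mul_le_iff₀ hs₂0]
      linarith
    have h8 : (c : ℝ) + 1 ≤ ((∑ i, R i : ℕ) : ℝ) := by exact_mod_cast hcC
    linarith
  obtain ⟨θ, hθ⟩ := mem_range_of_exists_le_of_exists_ge hcont hlow hhigh
  exact ⟨Real.exp θ, Real.exp_pos θ, hθ⟩

/-- Weighted AM-GM for one factor. -/
theorem rpow_le_lin {z p : ℝ} (hz : 0 < z) (h0 : 0 ≤ p) (h1 : p ≤ 1) :
    z ^ p ≤ p * z + (1 - p) := by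
  have := Real.geom_mean_le_arith_mean2_weighted h0 (by linarith : 0 ≤ 1 - p) hz.le zero_le_one
    (by ring)
  simpa using this

/-- The saddle point minimizes. -/
theorem saddle_min (R : Fin m → ℕ) (t S : Fin m → ℝ) (ht : ∀ i, 0 < t i) (hS : ∀ i, 0 < S i)
    (c : ℕ) {s0 s : ℝ} (hs0 : 0 < s0) (hs : 0 < s)
    (hmean : ∑ i, (R i : ℝ) * (t i * s0 / (t i * s0 + S i)) = c) :
    (∏ i, (t i * s0 + S i) ^ R i) / s0 ^ c ≤ (∏ i, (t i * s + S i) ^ R i) / s ^ c := by
  set z := s / s0 with hz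
  have hz0 : 0 < z := by positivity
  have hfac : ∀ i, t i * s + S i
      = (t i * s0 + S i) * ((t i * s0 / (t i * s0 + S i)) * z + (1 - t i * s0 / (t i * s0 + S i))) := by
    intro i
    have h2 := ht i
    have h3 := hS i
    have h4 : t i * s0 + S i ≠ 0 := by positivity
    rw [hz]
    field_simp
    ring
  have hprod : z ^ ((c : ℕ) : ℝ) ≤ ∏ i, ((t i * s0 / (t i * s0 + S i)) * z + (1 - t i * s0 / (t i * s0 + S i))) ^ R i := by
    rw [← hmean, Real.rpow_sum_of_pos hz0]
    refine Finset.prod_le_prod (fun i _ => by positivity) fun i _ => ?_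
    have h2 := ht i
    have h3 := hS i
    have hp0 : 0 ≤ t i * s0 / (t i * s0 + S i) := by positivity
    have hp1 : t i * s0 / (t i * s0 + S i) ≤ 1 := by
      rw [div_le_one (by positivity)]
      linarith
    have := rpow_le_lin hz0 hp0 hp1
    rw [mul_comm (R i : ℝ), Real.rpow_mul_natCast hz0.le]
    exact pow_le_pow_left₀ (by positivity) this _
  rw [Real.rpow_natCast] at hprod
  have hP : 0 < ∏ i, (t i * s0 + S i) ^ R i :=
    Finset.prod_pos fun i _ => by
      have h2 := ht i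
      have h3 := hS i
      positivity
  have hexp : ∏ i, (t i * s + S i) ^ R i
      = (∏ i, (t i * s0 + S i) ^ R i)
        * ∏ i, ((t i * s0 / (t i * s0 + S i)) * z + (1 - t i * s0 / (t i * s0 + S i))) ^ R i := by
    rw [← Finset.prod_mul_distrib]
    refine Finset.prod_congr rfl fun i _ => ?_
    rw [← mul_pow, ← hfac i]
  rw [hexp, div_le_div_iff₀ (by positivity) (by positivity)]
  have hzc : s ^ c = z ^ c * s0 ^ c := by
    rw [hz, div_pow]
    field_simp
  rw [hzc]
  have hs0c : 0 < s0 ^ c := by positivity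
  calc (∏ i, (t i * s0 + S i) ^ R i) * (z ^ c * s0 ^ c)
      = (∏ i, (t i * s0 + S i) ^ R i) * s0 ^ c * z ^ c := by ring
    _ ≤ (∏ i, (t i * s0 + S i) ^ R i) * s0 ^ c
        * ∏ i, ((t i * s0 / (t i * s0 + S i)) * z + (1 - t i * s0 / (t i * s0 + S i))) ^ R i :=
        mul_le_mul_of_nonneg_left hprod (by positivity)
    _ = _ := by ring

/-- The polynomial term of `x` in the expansion. -/
noncomputable def tm (R : Fin m → ℕ) (t S : Fin m → ℝ) (x : Fin m → ℕ) : ℝ :=
  ∏ i, ((R i).choose (x i) : ℝ) * t i ^ x i * S i ^ (R i - x i)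

/-- The binomial weight at the saddle equals the term, up to the common factor. -/
theorem wt_saddle (R : Fin m → ℕ) (t S : Fin m → ℝ) (ht : ∀ i, 0 < t i) (hS : ∀ i, 0 < S i)
    {s : ℝ} (hs : 0 < s) {x : Fin m → ℕ} (hx : ∀ i, x i ≤ R i) :
    tm R t S x * s ^ (∑ i, x i)
      = wt R (fun i => t i * s / (t i * s + S i)) x * ∏ i, (t i * s + S i) ^ R i := by
  unfold tm wt
  rw [← Finset.prod_pow_eq_pow_sum, ← Finset.prod_mul_distrib, ← Finset.prod_mul_distrib]
  refine Finset.prod_congr rfl fun i _ => ?_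
  unfold bw
  have h2 := ht i
  have h3 := hS i
  have h4 : t i * s + S i ≠ 0 := by positivity
  have h5 : 1 - t i * s / (t i * s + S i) = S i / (t i * s + S i) := by
    field_simp
    ring
  rw [h5, div_pow, div_pow]
  have h6 : (t i * s + S i) ^ R i = (t i * s + S i) ^ x i * (t i * s + S i) ^ (R i - x i) := by
    rw [← pow_add, Nat.add_sub_cancel' (hx i)]
  rw [h6]
  have h7 : (t i * s + S i) ^ x i ≠ 0 := pow_ne_zero _ h4
  have h8 : (t i * s + S i) ^ (R i - x i) ≠ 0 := pow_ne_zero _ h4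
  field_simp
  ring

/-- The one column step, for every `s > 0`. -/
theorem col_step (R : Fin m → ℕ) (t S : Fin m → ℝ) (ht : ∀ i, 0 < t i) (hS : ∀ i, 0 < S i)
    (c : ℕ) (hc : 0 < c) (hcC : c < ∑ i, R i) {s : ℝ} (hs : 0 < s) :
    ∑ x ∈ lev R c, Yp R x * tm R t S x
      ≤ (1 - (c : ℝ) / (∑ i, R i : ℕ)) * (c : ℝ) * bw (∑ i, R i) ((c : ℝ) / (∑ i, R i : ℕ)) c
        * ((∏ i, (t i * s + S i) ^ R i) / s ^ c) := by
  obtain ⟨s0, hs0, hmean⟩ := exists_saddle R t S ht hS c hc hcC
  have hP : 0 < ∏ i, (t i * s0 + S i) ^ R i :=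
    Finset.prod_pos fun i _ => by
      have h2 := ht i
      have h3 := hS i
      positivity
  set p : Fin m → ℝ := fun i => t i * s0 / (t i * s0 + S i) with hp
  have hp0 : ∀ i, 0 < p i := fun i => by
    have h2 := ht i
    have h3 := hS i
    simp only [hp]
    positivity
  have hp1 : ∀ i, p i < 1 := fun i => by
    have h2 := ht i
    have h3 := hS i
    simp only [hp]
    rw [div_lt_one (by positivity)]
    linarith
  have hpb := pb_main R p c hp0 hp1 hmean hc hcC
  have hterm : ∀ x ∈ lev R c, Yp R x * tm R t S x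
      = (Yp R x * wt R p x) * ((∏ i, (t i * s0 + S i) ^ R i) / s0 ^ c) := by
    intro x hx
    have h1 := wt_saddle R t S ht hS hs0 (mem_lev.1 hx).1
    rw [(mem_lev.1 hx).2] at h1
    have hsc : s0 ^ c ≠ 0 := by positivity
    have : tm R t S x = wt R p x * (∏ i, (t i * s0 + S i) ^ R i) / s0 ^ c := by
      rw [eq_div_iff hsc, h1]
    rw [this]
    ring
  rw [Finset.sum_congr rfl hterm, ← Finset.sum_mul]
  have hmin := saddle_min R t S ht hS c hs0 hs hmean
  have hpos0 : 0 ≤ (∏ i, (t i * s0 + S i) ^ R i) / s0 ^ c := by positivity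
  have hC : (0 : ℝ) < ((∑ i, R i : ℕ) : ℝ) := by
    have : 0 < ∑ i, R i := by omega
    exact_mod_cast this
  have hbar0 : 0 ≤ (c : ℝ) / (∑ i, R i : ℕ) := by positivity
  have hbar1 : (c : ℝ) / (∑ i, R i : ℕ) ≤ 1 := by
    rw [div_le_one hC]
    exact_mod_cast hcC.le
  have hbw0 := bw_nonneg (R := ∑ i, R i) (v := c) hbar0 hbar1
  have hA0 : 0 ≤ (1 - (c : ℝ) / (∑ i, R i : ℕ)) * (c : ℝ)
      * bw (∑ i, R i) ((c : ℝ) / (∑ i, R i : ℕ)) c := by
    have : 0 ≤ 1 - (c : ℝ) / (∑ i, R i : ℕ) := by linarith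
    positivity
  exact (mul_le_mul_of_nonneg_right hpb hpos0).trans (mul_le_mul_of_nonneg_left hmin hA0)

end Vale.Agent.Lib.P328.Cap
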