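import Vale.Agent.Lib.P328.Cap.Defs
import Vale.Agent.Lib.P328.Cap.Step

/-!
# P328, capacity bound: the recursion of the capacity over one column (infimum of a sum)
-/

namespace Vale.Agent.Lib.P328.Cap

open Finset
open scoped ENNReal

variable {m n : ℕ}

/-- The constant of the Poisson binomial inequality. -/
noncomputable def Acst (C' c : ℕ) : ℝ :=
  (1 - (c : ℝ) / (C' : ℝ)) * (c : ℝ) * bw C' ((c : ℝ) / (C' : ℝ)) c

theorem Acst_pos {C' c : ℕ} (hc : 0 < c) (hcC : c < C') : 0 < Acst C' c := by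
  unfold Acst bw
  have hC : (0 : ℝ) < C' := by exact_mod_cast (by omega : 0 < C')
  have h1 : (c : ℝ) / C' < 1 := by
    rw [div_lt_one hC]
    exact_mod_cast hcC
  have h2 : 0 < (c : ℝ) / C' := by
    have : (0 : ℝ) < c := by exact_mod_cast hc
    positivity
  have h3 : 0 < 1 - (c : ℝ) / C' := by linarith
  have h4 : (0 : ℝ) < c := by exact_mod_cast hc
  have h5 : (0 : ℝ) < (C'.choose c : ℝ) := by
    exact_mod_cast Nat.choose_pos hcC.le
  positivity

theorem Yp_nonneg {R x : Fin m → ℕ} (hx : ∀ i, x i ≤ R i) : 0 ≤ Yp R x := by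
  unfold Yp
  refine Finset.sum_nonneg fun i _ => ?_
  have : (x i : ℝ) ≤ R i := by exact_mod_cast hx i
  have h2 : 0 ≤ (R i : ℝ) - x i := by linarith
  positivity

/-- The capacity recursion over one column, for a weight `W` obeying the one column inequality. -/
theorem capa_rec_gen (R : Fin m → ℕ) (c0 : ℕ) (c' : Fin (n + 1) → ℕ) (t0 : Fin m → ℝ)
    (t' : Fin (n + 1) → Fin m → ℝ) (ht0 : ∀ i, 0 < t0 i) (ht' : ∀ j i, 0 < t' j i)
    (W : (Fin m → ℕ) → ℝ) (hW : ∀ x ∈ lev R c0, 0 ≤ W x) (A : ℝ) (hA : 0 < A)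
    (hCS : ∀ S : Fin m → ℝ, (∀ i, 0 < S i) → ∀ s : ℝ, 0 < s →
      ∑ x ∈ lev R c0, W x * tm R t0 S x ≤ A * ((∏ i, (t0 i * s + S i) ^ R i) / s ^ c0)) :
    ∑ x ∈ lev R c0, ENNReal.ofReal (W x * ∏ i, (((R i).choose (x i) : ℝ) * t0 i ^ x i))
        * capa (fun i => R i - x i) c' t'
      ≤ ENNReal.ofReal A * capa R (Fin.cons c0 c') (Fin.cons t0 t') := by
  unfold capa
  rw [ENNReal.mul_iInf_of_ne (by simpa using hA) ENNReal.ofReal_ne_top]
  refine le_iInf fun b => ?_
  obtain ⟨b, hb⟩ := b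
  set s := b 0 with hs
  have hs0 : 0 < s := hb 0
  set b' : Fin (n + 1) → ℝ := fun j => b j.succ with hb'
  have hb'0 : ∀ j, 0 < b' j := fun j => hb j.succ
  set S : Fin m → ℝ := fun i => ∑ j, t' j i * b' j with hS
  have hS0 : ∀ i, 0 < S i := fun i => by
    refine Finset.sum_pos (fun j _ => mul_pos (ht' j i) (hb'0 j)) ⟨0, mem_univ _⟩
  set B : ℝ := ∏ j, b' j ^ c' j with hB
  have hB0 : 0 < B := Finset.prod_pos fun j _ => pow_pos (hb'0 j) _
  have hone : ∀ x ∈ lev R c0,
      ENNReal.ofReal (W x * ∏ i, (((R i).choose (x i) : ℝ) * t0 i ^ x i))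
        * (⨅ b : {b : Fin (n + 1) → ℝ // ∀ j, 0 < b j},
            ENNReal.ofReal ((∏ i, (∑ j, t' j i * b.1 j) ^ (R i - x i)) / ∏ j, b.1 j ^ c' j))
      ≤ ENNReal.ofReal (W x * tm R t0 S x / B) := by
    intro x hx
    have hY := hW x hx
    have hP0 : 0 ≤ ∏ i, (((R i).choose (x i) : ℝ) * t0 i ^ x i) :=
      Finset.prod_nonneg fun i _ => by
        have := ht0 i
        positivity
    calc _ ≤ ENNReal.ofReal (W x * ∏ i, (((R i).choose (x i) : ℝ) * t0 i ^ x i))
          * ENNReal.ofReal ((∏ i, S i ^ (R i - x i)) / B) := by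
          gcongr
          exact iInf_le (fun b : {b : Fin (n + 1) → ℝ // ∀ j, 0 < b j} =>
            ENNReal.ofReal ((∏ i, (∑ j, t' j i * b.1 j) ^ (R i - x i)) / ∏ j, b.1 j ^ c' j))
            ⟨b', hb'0⟩
      _ = ENNReal.ofReal (W x * tm R t0 S x / B) := by
          rw [← ENNReal.ofReal_mul (by positivity)]
          congr 1
          have : tm R t0 S x = (∏ i, (((R i).choose (x i) : ℝ) * t0 i ^ x i)) * ∏ i, S i ^ (R i - x i) := by
            unfold tm
            rw [Finset.prod_mul_distrib]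
          rw [this]
          ring
  have hsum : ∑ x ∈ lev R c0, ENNReal.ofReal (W x * tm R t0 S x / B)
      = ENNReal.ofReal (∑ x ∈ lev R c0, W x * tm R t0 S x / B) := by
    rw [ENNReal.ofReal_sum_of_nonneg]
    intro x hx
    have hY := hW x hx
    have htm : 0 ≤ tm R t0 S x := Finset.prod_nonneg fun i _ => by
      have := ht0 i
      have := hS0 i
      positivity
    positivity
  have hstep := hCS S hS0 s hs0
  have hgoal : ((∏ i, (∑ j, (Fin.cons t0 t' : Fin (n + 1 + 1) → Fin m → ℝ) j i * b j) ^ R i)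
        / ∏ j, b j ^ (Fin.cons c0 c' : Fin (n + 1 + 1) → ℕ) j)
      = ((∏ i, (t0 i * s + S i) ^ R i) / s ^ c0) / B := by
    have h1 : ∀ i, ∑ j, (Fin.cons t0 t' : Fin (n + 1 + 1) → Fin m → ℝ) j i * b j = t0 i * s + S i := by
      intro i
      rw [Fin.sum_univ_succ]
      simp only [Fin.cons_zero, Fin.cons_succ]
      rfl
    simp only [h1]
    rw [Fin.prod_univ_succ, div_div]
    simp only [Fin.cons_zero, Fin.cons_succ]
    rfl
  simp only [hgoal]
  calc _ ≤ ∑ x ∈ lev R c0, ENNReal.ofReal (W x * tm R t0 S x / B) :=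
        Finset.sum_le_sum hone
    _ = ENNReal.ofReal (∑ x ∈ lev R c0, W x * tm R t0 S x / B) := hsum
    _ ≤ ENNReal.ofReal (A * ((∏ i, (t0 i * s + S i) ^ R i) / s ^ c0 / B)) := by
        apply ENNReal.ofReal_le_ofReal
        rw [← Finset.sum_div, ← mul_div_assoc]
        exact div_le_div_of_nonneg_right hstep hB0.le
    _ = _ := by
        rw [ENNReal.ofReal_mul hA.le]

/-- The one column inequality for the weight `Y'`, in the form needed above. -/
theorem col_step_Acst (R : Fin m → ℕ) (t S : Fin m → ℝ) (ht : ∀ i, 0 < t i) (hS : ∀ i, 0 < S i)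
    (c : ℕ) (hc : 0 < c) (hcC : c < ∑ i, R i) {s : ℝ} (hs : 0 < s) :
    ∑ x ∈ lev R c, Yp R x * tm R t S x
      ≤ Acst (∑ i, R i) c * ((∏ i, (t i * s + S i) ^ R i) / s ^ c) :=
  col_step R t S ht hS c hc hcC hs

/-- Total mass one. -/
theorem sum_box_wt (R : Fin m → ℕ) (p : Fin m → ℝ) : ∑ x ∈ box R, wt R p x = 1 := by
  have h : ∀ i, ∑ v ∈ range (R i + 1), bw (R i) (p i) v = 1 := by
    intro i
    have := add_pow (p i) (1 - p i) (R i)
    simp only [add_sub_cancel, one_pow] at this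
    rw [this]
    refine Finset.sum_congr rfl fun v _ => ?_
    unfold bw
    ring
  unfold box wt
  rw [← Finset.prod_univ_sum]
  simp [h]

/-- The trivial one column inequality: a coefficient is at most the capacity. -/
theorem col_step_one (R : Fin m → ℕ) (t S : Fin m → ℝ) (ht : ∀ i, 0 < t i) (hS : ∀ i, 0 < S i)
    (c : ℕ) {s : ℝ} (hs : 0 < s) :
    ∑ x ∈ lev R c, (1 : ℝ) * tm R t S x
      ≤ 1 * ((∏ i, (t i * s + S i) ^ R i) / s ^ c) := by
  have hP : 0 < ∏ i, (t i * s + S i) ^ R i :=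
    Finset.prod_pos fun i _ => by
      have h2 := ht i
      have h3 := hS i
      positivity
  have hsc : s ^ c ≠ 0 := by positivity
  have hp0 : ∀ i, 0 ≤ t i * s / (t i * s + S i) := fun i => by
    have h2 := ht i
    have h3 := hS i
    positivity
  have hp1 : ∀ i, t i * s / (t i * s + S i) ≤ 1 := fun i => by
    have h2 := ht i
    have h3 := hS i
    rw [div_le_one (by positivity)]
    linarith
  have hterm : ∀ x ∈ lev R c, (1 : ℝ) * tm R t S x
      = wt R (fun i => t i * s / (t i * s + S i)) x * ((∏ i, (t i * s + S i) ^ R i) / s ^ c) := by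
    intro x hx
    have h1 := wt_saddle R t S ht hS hs (mem_lev.1 hx).1
    rw [(mem_lev.1 hx).2] at h1
    rw [one_mul, mul_div_assoc', eq_div_iff hsc, h1]
  rw [Finset.sum_congr rfl hterm, ← Finset.sum_mul, one_mul]
  have hle : ∑ x ∈ lev R c, wt R (fun i => t i * s / (t i * s + S i)) x ≤ 1 := by
    rw [← sum_box_wt R (fun i => t i * s / (t i * s + S i))]
    exact Finset.sum_le_sum_of_subset_of_nonneg (Finset.filter_subset _ _)
      fun x _ _ => wt_nonneg hp0 hp1 x
  have hpos : 0 ≤ (∏ i, (t i * s + S i) ^ R i) / s ^ c := by positivity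
  calc _ ≤ 1 * ((∏ i, (t i * s + S i) ^ R i) / s ^ c) := mul_le_mul_of_nonneg_right hle hpos
    _ = _ := one_mul _

end Vale.Agent.Lib.P328.Cap
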