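import Mathlib

/-!
# P328: the expected capacity of a random product of linear forms

Tables are written by columns: `T j i` is the entry in column `j` and row `i`.
-/

namespace Vale.Agent.Lib.P328.Cap

open Finset MeasureTheory
open scoped ENNReal Nat

variable {m n : ℕ}

/-- The contingency tables with row sums `r` and column sums `c`, as functions
`T : column → row → ℕ`. (The box only makes the set finite: entries in row `i` are at most `r i`.) -/
def tabs (r : Fin m → ℕ) (c : Fin n → ℕ) : Finset (Fin n → Fin m → ℕ) :=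
  (Fintype.piFinset fun _ => Fintype.piFinset fun i => range (r i + 1)).filter
    fun T => (∀ j, ∑ i, T j i = c j) ∧ ∀ i, ∑ j, T j i = r i

/-- The capacity `inf_{b > 0} ∏ i, (∑ j, t j i * b j) ^ r i / ∏ j, b j ^ c j` of the product of
linear forms with coefficient matrix `t`. -/
noncomputable def capa (r : Fin m → ℕ) (c : Fin n → ℕ) (t : Fin n → Fin m → ℝ) : ℝ≥0∞ :=
  ⨅ b : {b : Fin n → ℝ // ∀ j, 0 < b j},
    ENNReal.ofReal ((∏ i, (∑ j, t j i * b.1 j) ^ r i) / ∏ j, b.1 j ^ c j)

/-- The density of the exponential law of mean one. -/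
noncomputable def expDens (x : ℝ) : ℝ≥0∞ := if 0 < x then ENNReal.ofReal (Real.exp (-x)) else 0

/-- The expected capacity for a matrix `t` with independent exponential entries of mean one,
divided by `∏ i, r i !`. The exact count of tables is the same expression with the coefficient of
`b ^ c` in place of the capacity. -/
noncomputable def Ihat (r : Fin m → ℕ) (c : Fin n → ℕ) : ℝ≥0∞ :=
  (∫⁻ t : Fin n → Fin m → ℝ, (∏ j, ∏ i, expDens (t j i)) * capa r c t)
    / ((∏ i, (r i)! : ℕ) : ℝ≥0∞)

/-- The van der Waerden type factor `(N! / N ^ N) * ∏ j, c j ^ c j / c j !`, `N = ∑ j, c j`. -/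
noncomputable def betaC (c : Fin n → ℕ) : ℝ :=
  (((∑ j, c j)! : ℕ) : ℝ) / ((∑ j, c j : ℕ) : ℝ) ^ (∑ j, c j)
    * ∏ j, ((c j : ℝ) ^ c j / (((c j)! : ℕ) : ℝ))

end Vale.Agent.Lib.P328.Cap
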