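import Vale.Agent.Lib.P328.Cap.PB1

/-!
# P328, capacity bound: the mean absolute deviation of a sum of binomials at its mean

`A k = ∑_{|x| = k} (∑ i, (1 - p i) * x i) * wt x`. We show `A c = E (X - c)_+` when the mean is `c`.
-/

namespace Vale.Agent.Lib.P328.Cap

open Finset

variable {m : ℕ}

/-- The statistic `∑ i, (1 - p i) * x i`. -/
noncomputable def qx (p : Fin m → ℝ) (x : Fin m → ℕ) : ℝ := ∑ i, (1 - p i) * (x i : ℝ)

/-- The statistic `∑ i, x i * (R i - x i) / R i`. -/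
noncomputable def Yp (R x : Fin m → ℕ) : ℝ := ∑ i, (x i : ℝ) * ((R i : ℝ) - x i) / (R i : ℝ)

/-- Rowwise identity, giving `Y' ≤ qx - L`. -/
theorem Yp_le (R : Fin m → ℕ) (p : Fin m → ℝ) {x : Fin m → ℕ} (hx : ∀ i, x i ≤ R i) :
    Yp R x ≤ qx p x - lin R p x := by
  unfold Yp qx lin
  rw [← Finset.sum_sub_distrib]
  refine Finset.sum_le_sum fun i _ => ?_
  unfold dv
  rcases Nat.eq_zero_or_pos (R i) with h | h
  · have hxi : x i = 0 := by have := hx i; omega
    simp [h, hxi]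
  · have hR : (0 : ℝ) < (R i : ℝ) := by exact_mod_cast h
    rw [div_le_iff₀ hR]
    have : ((1 - p i) * (x i : ℝ) - p i * ((x i : ℝ) - (R i : ℝ) * p i)) * (R i : ℝ)
        - (x i : ℝ) * ((R i : ℝ) - x i) = ((x i : ℝ) - (R i : ℝ) * p i) ^ 2 := by ring
    nlinarith [sq_nonneg ((x i : ℝ) - (R i : ℝ) * p i)]

/-- `A k`. -/
noncomputable def Aq (R : Fin m → ℕ) (p : Fin m → ℝ) (k : ℕ) : ℝ :=
  ∑ x ∈ lev R k, qx p x * wt R p x

/-- `P (X = k)`. -/
noncomputable def Pk (R : Fin m → ℕ) (p : Fin m → ℝ) (k : ℕ) : ℝ :=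
  ∑ x ∈ lev R k, wt R p x

theorem Aq_step (R : Fin m → ℕ) (p : Fin m → ℝ) (c : ℕ) (hmean : ∑ i, (R i : ℝ) * p i = c)
    (k : ℕ) : Aq R p k = Aq R p (k + 1) + ((k : ℝ) - c) * Pk R p k := by
  have h1 : Aq R p (k + 1) = ∑ x ∈ lev R k, (∑ i, p i * ((R i : ℝ) - x i)) * wt R p x := by
    unfold Aq qx
    simp only [Finset.sum_mul]
    rw [Finset.sum_comm]
    conv_rhs => rw [Finset.sum_comm]
    refine Finset.sum_congr rfl fun i _ => ?_
    have := flux R p i k (fun _ => 1)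
    simp only [mul_one] at this
    exact this
  rw [h1]
  unfold Aq Pk
  rw [Finset.mul_sum, ← Finset.sum_add_distrib]
  refine Finset.sum_congr rfl fun x hx => ?_
  have hk := (mem_lev.1 hx).2
  have : qx p x = ∑ i, p i * ((R i : ℝ) - x i) + ((k : ℝ) - c) := by
    unfold qx
    rw [← hk, ← hmean]
    push_cast
    rw [← Finset.sum_sub_distrib, ← Finset.sum_add_distrib]
    refine Finset.sum_congr rfl fun i _ => ?_
    ring
  rw [this]
  ring

/-- The tail sum `∑_{|x| ≥ l} (|x| - c) * wt x`. -/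
noncomputable def Stail (R : Fin m → ℕ) (p : Fin m → ℝ) (c l : ℕ) : ℝ :=
  ∑ x ∈ box R, if l ≤ ∑ i, x i then ((∑ i, x i : ℕ) - (c : ℝ)) * wt R p x else 0

theorem Stail_step (R : Fin m → ℕ) (p : Fin m → ℝ) (c l : ℕ) :
    Stail R p c l = Stail R p c (l + 1) + ((l : ℝ) - c) * Pk R p l := by
  unfold Stail Pk lev
  rw [Finset.sum_filter, Finset.mul_sum, ← Finset.sum_add_distrib]
  refine Finset.sum_congr rfl fun x _ => ?_
  by_cases h1 : ∑ i, x i = l
  · have h2 : l ≤ ∑ i, x i := h1.ge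
    have h3 : ¬ (l + 1 ≤ ∑ i, x i) := by omega
    simp only [h1, le_refl, if_true, if_false, Nat.not_succ_le_self]
    simp
  · by_cases h2 : l ≤ ∑ i, x i
    · have h3 : l + 1 ≤ ∑ i, x i := by omega
      simp [h1, h2, h3]
    · have h3 : ¬ (l + 1 ≤ ∑ i, x i) := by omega
      simp [h1, h2, h3]

theorem sum_le_of_mem_box {R x : Fin m → ℕ} (hx : x ∈ box R) : ∑ i, x i ≤ ∑ i, R i :=
  Finset.sum_le_sum fun i _ => mem_box.1 hx i

theorem Aq_eq_Stail (R : Fin m → ℕ) (p : Fin m → ℝ) (c : ℕ) (hmean : ∑ i, (R i : ℝ) * p i = c)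
    (d l : ℕ) (h : ∑ i, R i < l + d) : Aq R p l = Stail R p c l := by
  induction d generalizing l with
  | zero =>
    have h1 : Aq R p l = 0 := by
      unfold Aq
      refine Finset.sum_eq_zero fun x hx => ?_
      have := sum_le_of_mem_box (mem_filter.1 hx).1
      have h2 := (mem_filter.1 hx).2
      omega
    have h2 : Stail R p c l = 0 := by
      unfold Stail
      refine Finset.sum_eq_zero fun x hx => ?_
      have := sum_le_of_mem_box hx
      rw [if_neg (by omega)]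
    rw [h1, h2]
  | succ d ih =>
    rw [Aq_step R p c hmean l, Stail_step R p c l, ih (l + 1) (by omega)]

/-- The mean absolute deviation identity, in the one sided form. -/
theorem Aq_eq_mad (R : Fin m → ℕ) (p : Fin m → ℝ) (c : ℕ) (hmean : ∑ i, (R i : ℝ) * p i = c) :
    Aq R p c = ∑ x ∈ box R, max (((∑ i, x i : ℕ) : ℝ) - c) 0 * wt R p x := by
  rw [Aq_eq_Stail R p c hmean (∑ i, R i + 1) c (by omega)]
  unfold Stail
  refine Finset.sum_congr rfl fun x _ => ?_
  by_cases h : c ≤ ∑ i, x i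
  · rw [if_pos h, max_eq_left]
    have : (c : ℝ) ≤ ((∑ i, x i : ℕ) : ℝ) := by exact_mod_cast h
    linarith
  · rw [if_neg h, max_eq_right, zero_mul]
    have : ((∑ i, x i : ℕ) : ℝ) ≤ (c : ℝ) := by exact_mod_cast (not_le.1 h).le
    linarith

end Vale.Agent.Lib.P328.Cap
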