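import Vale.Agent.Lib.P328.Cap.Defs
import Vale.Agent.Lib.P328.Cap.Box
import Vale.Agent.Lib.P328.Cap.PB2

/-!
# P328, capacity bound: uniform tables, first column against the later ones
-/

namespace Vale.Agent.Lib.P328.Cap

open Finset

variable {m n : ℕ}

theorem mem_tabs {r : Fin m → ℕ} {c : Fin n → ℕ} {T : Fin n → Fin m → ℕ} :
    T ∈ tabs r c ↔ (∀ j, ∑ i, T j i = c j) ∧ ∀ i, ∑ j, T j i = r i := by
  unfold tabs
  rw [mem_filter]
  refine ⟨fun h => h.2, fun h => ⟨?_, h⟩⟩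
  rw [Fintype.mem_piFinset]
  intro j
  rw [Fintype.mem_piFinset]
  intro i
  rw [Finset.mem_range, Nat.lt_succ_iff, ← h.2 i]
  exact Finset.single_le_sum (f := fun z => T z i) (fun _ _ => Nat.zero_le _) (mem_univ j)

/-- The fiber of the two columns `j1`, `j2`, other columns and the sum of the two fixed. -/
theorem two_col (r : Fin m → ℕ) (c : Fin n → ℕ) (j1 j2 : Fin n) (hne : j1 ≠ j2)
    (ψ : (Fin m → ℕ) → (Fin m → ℕ) → ℝ)
    (h : ∀ s : Fin m → ℕ, ∑ i, s i = c j1 + c j2 →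
      ∑ x ∈ lev s (c j1), ψ x (fun i => s i - x i) ≤ 0) :
    ∑ T ∈ tabs r c, ψ (T j1) (T j2) ≤ 0 := by
  classical
  set Φ : (Fin n → Fin m → ℕ) → (Fin n → Fin m → ℕ) := fun T =>
    Function.update (Function.update T j1 (fun i => T j1 i + T j2 i)) j2 (fun _ => 0) with hΦ
  have hΦ1 : ∀ T, Φ T j1 = fun i => T j1 i + T j2 i := by
    intro T
    simp [hΦ, Function.update_of_ne hne]
  have hΦ2 : ∀ T, Φ T j2 = fun _ => 0 := by
    intro T
    simp [hΦ]
  have hΦ3 : ∀ T j, j ≠ j1 → j ≠ j2 → Φ T j = T j := by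
    intro T j h1 h2
    simp [hΦ, Function.update_of_ne h1, Function.update_of_ne h2]
  rw [← Finset.sum_fiberwise_of_maps_to (t := (tabs r c).image Φ) (g := Φ)
    (fun T hT => Finset.mem_image_of_mem Φ hT)]
  refine Finset.sum_nonpos fun y hy => ?_
  obtain ⟨T0, hT0, rfl⟩ := Finset.mem_image.1 hy
  obtain ⟨hT0c, hT0r⟩ := mem_tabs.1 hT0
  set s : Fin m → ℕ := fun i => T0 j1 i + T0 j2 i with hs
  have hssum : ∑ i, s i = c j1 + c j2 := by
    simp only [hs]
    rw [Finset.sum_add_distrib, hT0c, hT0c]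
  refine le_trans (le_of_eq ?_) (h s hssum)
  -- the fiber of `Φ T0` is the slice
  have hrow : ∀ (T : Fin n → Fin m → ℕ) (i : Fin m), ∑ j, T j i
      = T j1 i + T j2 i + ∑ j ∈ (univ.erase j1).erase j2, T j i := by
    intro T i
    rw [← Finset.add_sum_erase univ _ (mem_univ j1),
      ← Finset.add_sum_erase (univ.erase j1) _ (mem_erase.2 ⟨hne.symm, mem_univ j2⟩)]
    ring
  refine Finset.sum_nbij' (fun T => T j1)
    (fun x => Function.update (Function.update (Φ T0) j1 x) j2 (fun i => s i - x i)) ?_ ?_ ?_ ?_ ?_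
  · intro T hT
    obtain ⟨hTt, hTy⟩ := mem_filter.1 hT
    obtain ⟨hTc, hTr⟩ := mem_tabs.1 hTt
    have h1 : ∀ i, T j1 i + T j2 i = s i := by
      intro i
      have := congrFun (congrFun hTy j1) i
      rw [hΦ1, hΦ1] at this
      exact this
    refine mem_lev.2 ⟨fun i => ?_, hTc j1⟩
    rw [← h1 i]
    omega
  · intro x hx
    obtain ⟨hxs, hxc⟩ := mem_lev.1 hx
    set T' := Function.update (Function.update (Φ T0) j1 x) j2 (fun i => s i - x i) with hT'
    have e1 : T' j1 = x := by simp [hT', Function.update_of_ne hne]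
    have e2 : T' j2 = fun i => s i - x i := by simp [hT']
    have e3 : ∀ j, j ≠ j1 → j ≠ j2 → T' j = T0 j := by
      intro j h1 h2
      simp only [hT', Function.update_of_ne h2, Function.update_of_ne h1]
      exact hΦ3 T0 j h1 h2
    refine mem_filter.2 ⟨mem_tabs.2 ⟨fun j => ?_, fun i => ?_⟩, ?_⟩
    · by_cases h1 : j = j1
      · rw [h1, e1, hxc]
      by_cases h2 : j = j2
      · rw [h2, e2]
        have : ∑ i, (s i - x i) + ∑ i, x i = ∑ i, s i := by
          rw [← Finset.sum_add_distrib]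
          refine Finset.sum_congr rfl fun i _ => ?_
          have := hxs i
          omega
        rw [hxc, hssum] at this
        show ∑ i, (s i - x i) = c j2
        omega
      · rw [e3 j h1 h2]
        exact hT0c j
    · rw [hrow T' i, ← hT0r i, hrow T0 i, e1, e2]
      have h3 : ∑ j ∈ (univ.erase j1).erase j2, T' j i = ∑ j ∈ (univ.erase j1).erase j2, T0 j i := by
        refine Finset.sum_congr rfl fun j hj => ?_
        rw [e3 j (Finset.ne_of_mem_erase (Finset.mem_of_mem_erase hj)) (Finset.ne_of_mem_erase hj)]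
      rw [h3]
      have := hxs i
      simp only [hs] at this ⊢
      omega
    · funext j
      by_cases h1 : j = j1
      · rw [h1, hΦ1, hΦ1, e1, e2]
        funext i
        have := hxs i
        simp only [hs] at this ⊢
        omega
      by_cases h2 : j = j2
      · rw [h2, hΦ2, hΦ2]
      · rw [hΦ3 T' j h1 h2, hΦ3 T0 j h1 h2, e3 j h1 h2]
  · intro T hT
    obtain ⟨hTt, hTy⟩ := mem_filter.1 hT
    have h1 : ∀ i, T j1 i + T j2 i = s i := by
      intro i
      have := congrFun (congrFun hTy j1) i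
      rw [hΦ1, hΦ1] at this
      exact this
    funext j
    by_cases h2 : j = j2
    · rw [h2]
      simp only [Function.update_self]
      funext i
      have := h1 i
      omega
    rw [Function.update_of_ne h2]
    by_cases h3 : j = j1
    · rw [h3]
      simp
    rw [Function.update_of_ne h3]
    have := congrFun hTy j
    rw [hΦ3 T j h3 h2] at this
    exact this.symm
  · intro x _
    simp [Function.update_of_ne hne]
  · intro T hT
    obtain ⟨hTt, hTy⟩ := mem_filter.1 hT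
    have h1 : ∀ i, T j1 i + T j2 i = s i := by
      intro i
      have := congrFun (congrFun hTy j1) i
      rw [hΦ1, hΦ1] at this
      exact this
    congr 1
    funext i
    have := h1 i
    omega

/-- Second moment bound, first column against a later column. -/
theorem tab_sm (r : Fin m → ℕ) (c : Fin n → ℕ) (j1 j2 : Fin n) (hne : j1 ≠ j2) (hc : c j1 ≤ c j2)
    (i : Fin m) :
    ∑ T ∈ tabs r c, ((T j1 i : ℝ) ^ 2 - 2 * (T j1 i : ℝ) * (T j2 i : ℝ) - (T j1 i : ℝ)) ≤ 0 := by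
  refine two_col r c j1 j2 hne (fun x z => (x i : ℝ) ^ 2 - 2 * (x i : ℝ) * (z i : ℝ) - (x i : ℝ)) ?_
  intro s hs
  refine le_trans (le_of_eq ?_) (slice_sm s (c j1) (by omega) i)
  refine Finset.sum_congr rfl fun x hx => ?_
  have h1 := (mem_lev.1 hx).1 i
  rw [Nat.cast_sub h1]
  ring

/-- Share bound, first column against a later column. -/
theorem tab_share (r : Fin m → ℕ) (c : Fin n → ℕ) (j1 j2 : Fin n) (hne : j1 ≠ j2) (hc : c j1 ≤ c j2)
    (i : Fin m) :
    ∑ T ∈ tabs r c, ((T j1 i : ℝ) - (T j2 i : ℝ)) ≤ 0 := by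
  refine two_col r c j1 j2 hne (fun x z => (x i : ℝ) - (z i : ℝ)) ?_
  intro s hs
  refine le_trans (le_of_eq ?_) (slice_share s (c j1) (by omega) i)
  refine Finset.sum_congr rfl fun x hx => ?_
  have h1 := (mem_lev.1 hx).1 i
  rw [Nat.cast_sub h1]
  ring

/-- Row sum over the later columns. -/
theorem row_tail {r : Fin m → ℕ} {c : Fin (n + 1) → ℕ} {T : Fin (n + 1) → Fin m → ℕ}
    (hT : T ∈ tabs r c) (i : Fin m) :
    ∑ l : Fin n, (T l.succ i : ℝ) = (r i : ℝ) - T 0 i := by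
  have h := (mem_tabs.1 hT).2 i
  rw [Fin.sum_univ_succ] at h
  rw [← h]
  push_cast
  ring

/-- The second moment bound summed over the later columns. -/
theorem tab_moment2 (r : Fin m → ℕ) (c : Fin (n + 1) → ℕ) (hc : ∀ l : Fin n, c 0 ≤ c l.succ)
    (i : Fin m) :
    ∑ T ∈ tabs r c, (((n : ℝ) + 2) * (T 0 i : ℝ) ^ 2 - (2 * (r i : ℝ) + n) * (T 0 i : ℝ)) ≤ 0 := by
  have h : ∑ l : Fin n, ∑ T ∈ tabs r c,
      ((T 0 i : ℝ) ^ 2 - 2 * (T 0 i : ℝ) * (T l.succ i : ℝ) - (T 0 i : ℝ)) ≤ 0 :=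
    Finset.sum_nonpos fun l _ => tab_sm r c 0 l.succ (Fin.succ_ne_zero l).symm (hc l) i
  rw [Finset.sum_comm] at h
  refine le_trans (le_of_eq ?_) h
  refine Finset.sum_congr rfl fun T hT => ?_
  have h2 : ∑ l : Fin n, ((T 0 i : ℝ) ^ 2 - 2 * (T 0 i : ℝ) * (T l.succ i : ℝ) - (T 0 i : ℝ))
      = (n : ℝ) * (T 0 i : ℝ) ^ 2 - 2 * (T 0 i : ℝ) * ∑ l : Fin n, (T l.succ i : ℝ)
        - (n : ℝ) * (T 0 i : ℝ) := by
    rw [Finset.mul_sum, Finset.sum_sub_distrib, Finset.sum_sub_distrib]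
    simp
  rw [h2, row_tail hT]
  ring

/-- The share bound summed over the later columns. -/
theorem tab_moment1 (r : Fin m → ℕ) (c : Fin (n + 1) → ℕ) (hc : ∀ l : Fin n, c 0 ≤ c l.succ)
    (i : Fin m) :
    ∑ T ∈ tabs r c, (((n : ℝ) + 1) * (T 0 i : ℝ) - (r i : ℝ)) ≤ 0 := by
  have h : ∑ l : Fin n, ∑ T ∈ tabs r c, ((T 0 i : ℝ) - (T l.succ i : ℝ)) ≤ 0 :=
    Finset.sum_nonpos fun l _ => tab_share r c 0 l.succ (Fin.succ_ne_zero l).symm (hc l) i
  rw [Finset.sum_comm] at h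
  refine le_trans (le_of_eq ?_) h
  refine Finset.sum_congr rfl fun T hT => ?_
  have h2 : ∑ l : Fin n, ((T 0 i : ℝ) - (T l.succ i : ℝ))
      = (n : ℝ) * (T 0 i : ℝ) - ∑ l : Fin n, (T l.succ i : ℝ) := by
    rw [Finset.sum_sub_distrib]
    simp
  rw [h2, row_tail hT]
  ring

/-- The lower bound for the mean of `Y'` in the first column, `ν = n + 1` columns. -/
theorem tab_Yp (r : Fin m → ℕ) (c : Fin (n + 1) → ℕ) (hc : ∀ l : Fin n, c 0 ≤ c l.succ) :
    ((n : ℝ) / ((n : ℝ) + 2)) * ((c 0 : ℝ) - (m : ℝ) / ((n : ℝ) + 1)) * ((tabs r c).card : ℝ)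
      ≤ ∑ T ∈ tabs r c, Yp r (T 0) := by
  set Ω := (tabs r c).card with hΩ
  have hn0 : (0 : ℝ) ≤ n := by positivity
  have hrow : ∀ i : Fin m, ((n : ℝ) / ((n : ℝ) + 2))
        * (∑ T ∈ tabs r c, (T 0 i : ℝ) - (Ω : ℝ) / ((n : ℝ) + 1))
      ≤ ∑ T ∈ tabs r c, (T 0 i : ℝ) * ((r i : ℝ) - T 0 i) / (r i : ℝ) := by
    intro i
    have hm2 := tab_moment2 r c hc i
    have hm1 := tab_moment1 r c hc i
    rw [Finset.sum_sub_distrib] at hm2 hm1
    rw [← Finset.mul_sum, ← Finset.mul_sum] at hm2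
    rw [← Finset.mul_sum] at hm1
    simp only [Finset.sum_const, nsmul_eq_mul] at hm1
    rw [← hΩ] at hm1
    set X := ∑ T ∈ tabs r c, (T 0 i : ℝ) with hX
    set X2 := ∑ T ∈ tabs r c, (T 0 i : ℝ) ^ 2 with hX2
    have hX0 : 0 ≤ X := Finset.sum_nonneg fun T _ => by positivity
    rcases Nat.eq_zero_or_pos (r i) with hr | hr
    · -- empty row
      have hxz : ∀ T ∈ tabs r c, T 0 i = 0 := by
        intro T hT
        have h := (mem_tabs.1 hT).2 i
        rw [Fin.sum_univ_succ, hr] at h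
        omega
      have hX00 : X = 0 := Finset.sum_eq_zero fun T hT => by rw [hxz T hT]; simp
      have hR : ∑ T ∈ tabs r c, (T 0 i : ℝ) * ((r i : ℝ) - T 0 i) / (r i : ℝ) = 0 := by
        refine Finset.sum_eq_zero fun T _ => ?_
        rw [hr]
        simp
      rw [hR, hX00]
      have : 0 ≤ (n : ℝ) / ((n : ℝ) + 2) * ((Ω : ℝ) / ((n : ℝ) + 1)) := by positivity
      linarith
    · have hrr : (0 : ℝ) < (r i : ℝ) := by exact_mod_cast hr
      have hsum : ∑ T ∈ tabs r c, (T 0 i : ℝ) * ((r i : ℝ) - T 0 i) / (r i : ℝ)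
          = X - X2 / (r i : ℝ) := by
        rw [hX, hX2, Finset.sum_div, ← Finset.sum_sub_distrib]
        refine Finset.sum_congr rfl fun T _ => ?_
        field_simp
      rw [hsum]
      have h1 : X2 / (r i : ℝ) ≤ (2 * X + (n : ℝ) * (X / (r i : ℝ))) / ((n : ℝ) + 2) := by
        rw [div_le_div_iff₀ hrr (by positivity)]
        have e : (2 * X + (n : ℝ) * (X / (r i : ℝ))) * (r i : ℝ) = (2 * (r i : ℝ) + n) * X := by
          field_simp
        rw [e]
        linarith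
      have h2 : X / (r i : ℝ) ≤ (Ω : ℝ) / ((n : ℝ) + 1) := by
        rw [div_le_div_iff₀ hrr (by positivity)]
        linarith
      have h3 : (n : ℝ) * (X / (r i : ℝ)) ≤ (n : ℝ) * ((Ω : ℝ) / ((n : ℝ) + 1)) :=
        mul_le_mul_of_nonneg_left h2 hn0
      have h4 : (2 * X + (n : ℝ) * (X / (r i : ℝ))) / ((n : ℝ) + 2)
          ≤ (2 * X + (n : ℝ) * ((Ω : ℝ) / ((n : ℝ) + 1))) / ((n : ℝ) + 2) := by
        apply div_le_div_of_nonneg_right _ (by positivity)
        linarith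
      have e2 : (n : ℝ) / ((n : ℝ) + 2) * (X - (Ω : ℝ) / ((n : ℝ) + 1))
          = X - (2 * X + (n : ℝ) * ((Ω : ℝ) / ((n : ℝ) + 1))) / ((n : ℝ) + 2) := by
        field_simp
        ring
      rw [e2]
      linarith
  have hsumrows : ∑ i : Fin m, ((n : ℝ) / ((n : ℝ) + 2))
        * (∑ T ∈ tabs r c, (T 0 i : ℝ) - (Ω : ℝ) / ((n : ℝ) + 1))
      ≤ ∑ T ∈ tabs r c, Yp r (T 0) := by
    unfold Yp
    rw [Finset.sum_comm (s := tabs r c)]
    exact Finset.sum_le_sum fun i _ => hrow i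
  refine le_trans (le_of_eq ?_) hsumrows
  rw [← Finset.mul_sum, Finset.sum_sub_distrib, Finset.sum_comm]
  have h5 : ∑ T ∈ tabs r c, ∑ i, (T 0 i : ℝ) = (c 0 : ℝ) * (Ω : ℝ) := by
    have : ∀ T ∈ tabs r c, ∑ i, (T 0 i : ℝ) = (c 0 : ℝ) := by
      intro T hT
      rw [← (mem_tabs.1 hT).1 0]
      push_cast
      rfl
    rw [Finset.sum_congr rfl this]
    simp [hΩ, mul_comm]
  rw [h5]
  simp only [Finset.sum_const, card_univ, Fintype.card_fin, nsmul_eq_mul]
  field_simp

/-- The Markov property: the tables with first column `x`. -/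
theorem card_fiber (R : Fin m → ℕ) (c0 : ℕ) (c' : Fin n → ℕ) {x : Fin m → ℕ} (hx : x ∈ lev R c0) :
    ((tabs R (Fin.cons c0 c')).filter fun T => T 0 = x).card
      = (tabs (fun i => R i - x i) c').card := by
  obtain ⟨hxR, hxc⟩ := mem_lev.1 hx
  refine Finset.card_nbij' (fun T l => T l.succ) (fun T' => Fin.cons x T') ?_ ?_ ?_ ?_
  · intro T hT
    obtain ⟨hTt, hT0⟩ := mem_filter.1 hT
    obtain ⟨hTc, hTr⟩ := mem_tabs.1 hTt
    refine mem_tabs.2 ⟨fun l => ?_, fun i => ?_⟩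
    · have := hTc l.succ
      simpa using this
    · have := hTr i
      rw [Fin.sum_univ_succ, hT0] at this
      simp only
      omega
  · intro T' hT'
    obtain ⟨hTc, hTr⟩ := mem_tabs.1 hT'
    refine mem_filter.2 ⟨mem_tabs.2 ⟨fun j => ?_, fun i => ?_⟩, rfl⟩
    · refine Fin.cases ?_ (fun l => ?_) j
      · simpa using hxc
      · simpa using hTc l
    · rw [Fin.sum_univ_succ]
      simp only [Fin.cons_zero, Fin.cons_succ]
      rw [hTr i]
      have := hxR i
      omega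
  · intro T hT
    obtain ⟨hTt, hT0⟩ := mem_filter.1 hT
    funext j
    refine Fin.cases ?_ (fun l => ?_) j
    · simp [hT0]
    · simp
  · intro T' _
    funext l
    simp

/-- The Markov property: sums over a table of a function of the first column. -/
theorem sum_first_col (R : Fin m → ℕ) (c0 : ℕ) (c' : Fin n → ℕ) (f : (Fin m → ℕ) → ℝ) :
    ∑ T ∈ tabs R (Fin.cons c0 c'), f (T 0)
      = ∑ x ∈ lev R c0, f x * ((tabs (fun i => R i - x i) c').card : ℝ) := by
  have hmaps : ∀ T ∈ tabs R (Fin.cons c0 c'), T 0 ∈ lev R c0 := by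
    intro T hT
    obtain ⟨hTc, hTr⟩ := mem_tabs.1 hT
    refine mem_lev.2 ⟨fun i => ?_, by simpa using hTc 0⟩
    rw [← hTr i, Fin.sum_univ_succ]
    omega
  rw [← Finset.sum_fiberwise_of_maps_to hmaps]
  refine Finset.sum_congr rfl fun x hx => ?_
  rw [← card_fiber R c0 c' hx, Finset.sum_congr rfl (g := fun _ => f x), Finset.sum_const,
    nsmul_eq_mul, mul_comm]
  intro T hT
  rw [(mem_filter.1 hT).2]

end Vale.Agent.Lib.P328.Cap
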