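import Vale.Agent.Lib.P328.Cap.Int
import Vale.Agent.Lib.P328.Cap.Table

/-!
# P328, capacity bound: the induction over the columns
-/

namespace Vale.Agent.Lib.P328.Cap

open Finset MeasureTheory
open scoped ENNReal Nat

variable {m n : ℕ}

theorem betaC_nonneg (c : Fin n → ℕ) : 0 ≤ betaC c := by
  unfold betaC
  positivity

/-- The factor `betaC` telescopes. -/
theorem betaC_cons (c0 : ℕ) (c' : Fin n → ℕ) (hc0 : 0 < c0) (hD : 0 < ∑ j, c' j) :
    betaC (Fin.cons c0 c' : Fin (n + 1) → ℕ)
      = bw (c0 + ∑ j, c' j) ((c0 : ℝ) / ((c0 + ∑ j, c' j : ℕ) : ℝ)) c0 * betaC c' := by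
  set D := ∑ j, c' j with hDdef
  have hsum : ∑ j, (Fin.cons c0 c' : Fin (n + 1) → ℕ) j = c0 + D := by
    rw [Fin.sum_univ_succ]
    simp [hDdef]
  unfold betaC bw
  rw [hsum, Fin.prod_univ_succ]
  simp only [Fin.cons_zero, Fin.cons_succ]
  rw [← hDdef]
  have hC : (0 : ℝ) < ((c0 + D : ℕ) : ℝ) := by
    have : 0 < c0 + D := by omega
    exact_mod_cast this
  have hD' : (0 : ℝ) < (D : ℝ) := by exact_mod_cast hD
  have hc0' : (0 : ℝ) < (c0 : ℝ) := by exact_mod_cast hc0
  have h1 : (1 - (c0 : ℝ) / ((c0 + D : ℕ) : ℝ)) = (D : ℝ) / ((c0 + D : ℕ) : ℝ) := by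
    push_cast at hC ⊢
    field_simp
    ring
  have h2 : c0 + D - c0 = D := by omega
  rw [h1, h2]
  have h3 : (((c0 + D)! : ℕ) : ℝ) = ((c0 + D).choose c0 : ℝ) * ((c0 ! : ℕ) : ℝ) * ((D ! : ℕ) : ℝ) := by
    have := Nat.choose_mul_factorial_mul_factorial (Nat.le_add_right c0 D)
    rw [Nat.add_sub_cancel_left] at this
    exact_mod_cast this.symm
  rw [h3, div_pow, div_pow]
  have h4 : ((c0 + D : ℕ) : ℝ) ^ (c0 + D) = ((c0 + D : ℕ) : ℝ) ^ c0 * ((c0 + D : ℕ) : ℝ) ^ D :=
    pow_add _ _ _
  rw [h4]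
  have h5 : (((c0 ! : ℕ) : ℝ)) ≠ 0 := by exact_mod_cast (Nat.factorial_pos c0).ne'
  have h6 : (((D ! : ℕ) : ℝ)) ≠ 0 := by exact_mod_cast (Nat.factorial_pos D).ne'
  have h7 : ((c0 + D : ℕ) : ℝ) ^ c0 ≠ 0 := by positivity
  have h8 : ((c0 + D : ℕ) : ℝ) ^ D ≠ 0 := by positivity
  have h9 : (D : ℝ) ^ D ≠ 0 := by positivity
  set P := ∏ j, ((c' j : ℝ) ^ c' j / (((c' j)! : ℕ) : ℝ))
  field_simp

/-- One column: the capacity is the monomial. -/
theorem capa_one_col (R : Fin m → ℕ) (c : Fin 1 → ℕ) (hsum : ∑ i, R i = c 0) (u : Fin m → ℝ)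
    (_hu : ∀ i, 0 < u i) (t' : Fin 0 → Fin m → ℝ) :
    ENNReal.ofReal (∏ i, u i ^ R i) ≤ capa R c (Fin.cons u t') := by
  unfold capa
  refine le_iInf fun b => ?_
  obtain ⟨b, hb⟩ := b
  apply ENNReal.ofReal_le_ofReal
  simp only [Fin.sum_univ_one, Fin.prod_univ_one, Fin.cons_zero]
  have hb0 := hb 0
  simp only [mul_pow]
  rw [Finset.prod_mul_distrib, Finset.prod_pow_eq_pow_sum, hsum]
  rw [mul_div_assoc, div_self (by positivity), mul_one]

theorem Ihat_one_col (R : Fin m → ℕ) (c : Fin 1 → ℕ) (hsum : ∑ i, R i = c 0) :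
    1 ≤ Ihat R c := by
  rw [Ihat_eq]
  have hF0 : ((∏ i, (R i)! : ℕ) : ℝ≥0∞) ≠ 0 := by
    exact_mod_cast (Finset.prod_pos fun i _ => Nat.factorial_pos _).ne'
  have hFt : ((∏ i, (R i)! : ℕ) : ℝ≥0∞) ≠ ⊤ := ENNReal.natCast_ne_top _
  rw [ENNReal.le_div_iff_mul_le (Or.inl hF0) (Or.inl hFt), one_mul]
  rw [lintegral_cons (E := Fin m → ℝ) 0]
  have h1 := lintegral_prod_mul (μ := (volume : Measure (Fin m → ℝ)))
      (ν := (volume : Measure (Fin 0 → Fin m → ℝ)))
      (f := fun u => wcol u * ENNReal.ofReal (∏ i, u i ^ R i)) (g := fun _ => 1)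
      ((measurable_wcol.mul (Measurable.ennreal_ofReal
      (Finset.measurable_prod _ fun i _ => (measurable_pi_apply i).pow_const _))).aemeasurable)
      aemeasurable_const
  rw [lintegral_wcol_mul] at h1
  have h2 : ∫⁻ _ : Fin 0 → Fin m → ℝ, (1 : ℝ≥0∞) = 1 := by
    simp [volume_pi]
  rw [h2, mul_one] at h1
  rw [← h1]
  refine lintegral_mono fun p => ?_
  obtain ⟨u, t'⟩ := p
  simp only [mul_one]
  rw [wmat_cons]
  have hw : wmat t' = 1 := by
    unfold wmat
    simp
  rw [hw, mul_one]
  by_cases hu : wcol u = 0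
  · simp [hu]
  · exact mul_le_mul_right (capa_one_col R c hsum u (wcol_ne_zero_pos hu) t') _

theorem card_tabs_one_col (R : Fin m → ℕ) (c : Fin 1 → ℕ) : (tabs R c).card ≤ 1 := by
  refine Finset.card_le_one.2 fun a ha b hb => ?_
  have h1 := (mem_tabs.1 ha).2
  have h2 := (mem_tabs.1 hb).2
  funext j i
  have hj : j = 0 := Subsingleton.elim _ _
  subst hj
  have h3 := h1 i
  have h4 := h2 i
  simp only [Fin.sum_univ_one] at h3 h4
  omega

theorem betaC_one_col (c : Fin 1 → ℕ) (hc : 0 < c 0) : betaC c = 1 := by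
  unfold betaC
  simp only [Fin.sum_univ_one, Fin.prod_univ_one]
  have h1 : (((c 0)! : ℕ) : ℝ) ≠ 0 := by exact_mod_cast (Nat.factorial_pos _).ne'
  have h2 : (c 0 : ℝ) ^ c 0 ≠ 0 := by
    have : (0 : ℝ) < c 0 := by exact_mod_cast hc
    positivity
  field_simp

/-- The mode of the binomial law with integer mean. -/
theorem bw_mode {C' c : ℕ} (hc : 0 < c) (hcC : c < C') (v : ℕ) (hv : v ≤ C') :
    bw C' ((c : ℝ) / (C' : ℝ)) v ≤ bw C' ((c : ℝ) / (C' : ℝ)) c := by
  set p : ℝ := (c : ℝ) / (C' : ℝ) with hp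
  have hC : (0 : ℝ) < C' := by exact_mod_cast (by omega : 0 < C')
  have hcr : (0 : ℝ) < c := by exact_mod_cast hc
  have hcCr : (c : ℝ) < C' := by exact_mod_cast hcC
  have hp0 : 0 < p := by positivity
  have hp1 : p < 1 := by
    rw [hp, div_lt_one hC]
    exact hcCr
  have hpC : p * (C' : ℝ) = c := by
    rw [hp]
    field_simp
  have hup : ∀ u, u < c → bw C' p u ≤ bw C' p (u + 1) := by
    intro u hu
    have h1 := bw_succ (R := C') (p := p) (v := u) (by omega)
    have h2 := bw_nonneg (R := C') hp0.le hp1.le u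
    have h3 := bw_nonneg (R := C') hp0.le hp1.le (u + 1)
    have hur : (u : ℝ) + 1 ≤ c := by exact_mod_cast hu
    have hq : 0 < 1 - p := by linarith
    have hpos : 0 < (1 - p) * ((u : ℝ) + 1) := by positivity
    have hle : (1 - p) * ((u : ℝ) + 1) ≤ p * ((C' : ℝ) - u) := by nlinarith
    refine le_of_mul_le_mul_left ?_ hpos
    rw [h1]
    exact mul_le_mul_of_nonneg_right hle h2
  have hdown : ∀ u, c ≤ u → u < C' → bw C' p (u + 1) ≤ bw C' p u := by
    intro u hu huC
    have h1 := bw_succ (R := C') (p := p) (v := u) huC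
    have h2 := bw_nonneg (R := C') hp0.le hp1.le u
    have hur : (c : ℝ) ≤ u := by exact_mod_cast hu
    have hq : 0 < 1 - p := by linarith
    have hpos : 0 < (1 - p) * ((u : ℝ) + 1) := by positivity
    have hle : p * ((C' : ℝ) - u) ≤ (1 - p) * ((u : ℝ) + 1) := by nlinarith
    refine le_of_mul_le_mul_left ?_ hpos
    rw [h1]
    exact mul_le_mul_of_nonneg_right hle h2
  rcases le_total v c with hvc | hvc
  · have key : ∀ e, e ≤ c → bw C' p (c - e) ≤ bw C' p c := by
      intro e
      induction e with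
      | zero => intro _; simp
      | succ e ih =>
        intro he
        have h1 := hup (c - (e + 1)) (by omega)
        have h2 : c - (e + 1) + 1 = c - e := by omega
        rw [h2] at h1
        exact h1.trans (ih (by omega))
    have := key (c - v) (by omega)
    rwa [Nat.sub_sub_self hvc] at this
  · induction v, hvc using Nat.le_induction with
    | base => exact le_rfl
    | succ u hu ih =>
      exact (hdown u hu (by omega)).trans (ih (by omega))

/-- The total mass of a binomial law. -/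
theorem sum_bw (R : ℕ) (p : ℝ) : ∑ v ∈ range (R + 1), bw R p v = 1 := by
  have := add_pow p (1 - p) R
  simp only [add_sub_cancel, one_pow] at this
  rw [this]
  refine Finset.sum_congr rfl fun v _ => ?_
  unfold bw
  ring

/-- The binomial law at its integer mean has mass at least `1 / (C + 1)`. -/
theorem bw_mode_ge {C' c : ℕ} (hc : 0 < c) (hcC : c < C') :
    1 ≤ ((C' : ℝ) + 1) * bw C' ((c : ℝ) / (C' : ℝ)) c := by
  have h1 : ∑ v ∈ range (C' + 1), bw C' ((c : ℝ) / (C' : ℝ)) v
      ≤ ∑ _v ∈ range (C' + 1), bw C' ((c : ℝ) / (C' : ℝ)) c :=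
    Finset.sum_le_sum fun v hv => bw_mode hc hcC v (by
      have := Finset.mem_range.1 hv
      omega)
  rw [sum_bw, Finset.sum_const, Finset.card_range, nsmul_eq_mul] at h1
  push_cast at h1
  exact h1

/-- The constant of the induction. -/
noncomputable def Gk (B : ℝ) (k ν : ℕ) : ℝ :=
  B ^ (min (ν - 1) (2 * k - 2)) * (Nat.choose (max ν k) k : ℝ) * ((ν : ℝ) * ((ν : ℝ) + 1) / 2)

theorem Gk_nonneg {B : ℝ} (hB : 1 ≤ B) (k ν : ℕ) : 0 ≤ Gk B k ν := by
  unfold Gk
  have : 0 < B := by linarith
  positivity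

/-- The main induction, with `n + 1` columns. -/
theorem main_bound_k (hm : 0 < m) (k : ℕ) (hk : 0 < k) (B : ℝ) (hB : 1 ≤ B) :
    ∀ (n : ℕ) (c : Fin (n + 1) → ℕ), Monotone c → (∀ j, m ≤ k * c j) →
    ∀ R : Fin m → ℕ, ∑ i, R i = ∑ j, c j → ((∑ j, c j : ℕ) : ℝ) + 1 ≤ B →
      ((tabs R c).card : ℝ≥0∞) ≤ ENNReal.ofReal (Gk B k (n + 1) * betaC c) * Ihat R c := by
  intro n
  induction n with
  | zero =>
    intro c _ hcm R hsum _
    have hc0 : 0 < c 0 := by
      have := hcm 0
      by_contra h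
      have h2 : c 0 = 0 := by omega
      rw [h2] at this
      omega
    have h1 := Ihat_one_col R c (by simpa using hsum)
    have h2 := card_tabs_one_col R c
    have h3 : betaC c = 1 := betaC_one_col c hc0
    have h4 : Gk B k (0 + 1) = 1 := by
      unfold Gk
      have h5 : max (0 + 1) k = k := max_eq_right hk
      simp [h5]
    rw [h3, h4]
    norm_num
    calc ((tabs R c).card : ℝ≥0∞) ≤ 1 := by exact_mod_cast h2
      _ ≤ Ihat R c := h1
  | succ n ih =>
    intro c hmono hcm R hsum hBsum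
    set c0 := c 0 with hc0def
    set c' : Fin (n + 1) → ℕ := fun l => c l.succ with hc'
    have hcons : c = Fin.cons c0 c' := by
      funext j
      refine Fin.cases ?_ (fun l => ?_) j <;> simp [hc0def, hc']
    have hpos : ∀ j, 0 < c j := by
      intro j
      have := hcm j
      by_contra h
      have h2 : c j = 0 := by omega
      rw [h2] at this
      omega
    have hc00 : 0 < c0 := hpos 0
    have hD : 0 < ∑ j, c' j :=
      Finset.sum_pos (fun j _ => hpos j.succ) ⟨0, mem_univ _⟩
    have hsumc : ∑ j, c j = c0 + ∑ j, c' j := Fin.sum_univ_succ _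
    have hsumR : ∑ i, R i = c0 + ∑ j, c' j := by rw [hsum, hsumc]
    have hcC : c0 < ∑ i, R i := by omega
    have hmono' : Monotone c' := fun a b hab => hmono (Fin.succ_le_succ_iff.2 hab)
    have hcm' : ∀ j, m ≤ k * c' j := fun j => hcm j.succ
    rw [hcons]
    set Ω := (tabs R (Fin.cons c0 c')).card with hΩ
    set G' : ℝ := Gk B k (n + 1) with hG'
    set β' := betaC c' with hβ'
    have hβ'0 : 0 ≤ β' := betaC_nonneg c'
    have hG'0 : 0 ≤ G' := Gk_nonneg hB _ _
    have hIH : ∀ x ∈ lev R c0, ((tabs (fun i => R i - x i) c').card : ℝ≥0∞)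
        ≤ ENNReal.ofReal (G' * β') * Ihat (fun i => R i - x i) c' := by
      intro x hx
      obtain ⟨hxR, hxc⟩ := mem_lev.1 hx
      refine ih c' hmono' hcm' _ ?_ ?_
      · have : ∑ i, (R i - x i) + ∑ i, x i = ∑ i, R i := by
          rw [← Finset.sum_add_distrib]
          refine Finset.sum_congr rfl fun i _ => ?_
          have := hxR i
          omega
        omega
      · have h3 : ((∑ j, c' j : ℕ) : ℝ) ≤ ((∑ j, c j : ℕ) : ℝ) := by
          exact_mod_cast (by omega : ∑ j, c' j ≤ ∑ j, c j)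
        linarith
    have hbw0 : 0 ≤ bw (c0 + ∑ j, c' j) ((c0 : ℝ) / ((c0 + ∑ j, c' j : ℕ) : ℝ)) c0 := by
      have hC : (0 : ℝ) < ((c0 + ∑ j, c' j : ℕ) : ℝ) := by
        have : 0 < c0 + ∑ j, c' j := by omega
        exact_mod_cast this
      refine bw_nonneg (by positivity) ?_ _
      rw [div_le_one hC]
      exact_mod_cast Nat.le_add_right _ _
    rw [betaC_cons c0 c' hc00 hD, ← hβ']
    set b0 := bw (c0 + ∑ j, c' j) ((c0 : ℝ) / ((c0 + ∑ j, c' j : ℕ) : ℝ)) c0 with hb0
    have hB0 : 0 < B := by linarith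
    by_cases hcase : n + 2 < 2 * k
    · -- late column: the trivial step
      have hrec := Ihat_rec_one R c0 c'
      have hcount : (Ω : ℝ≥0∞) = ∑ x ∈ lev R c0, ((tabs (fun i => R i - x i) c').card : ℝ≥0∞) := by
        have h1 := sum_first_col R c0 c' (fun _ => (1 : ℝ))
        simp only [Finset.sum_const, nsmul_eq_mul, mul_one, one_mul] at h1
        have h2 : Ω = ∑ x ∈ lev R c0, (tabs (fun i => R i - x i) c').card := by
          have h3 : ((Ω : ℕ) : ℝ) = ((∑ x ∈ lev R c0, (tabs (fun i => R i - x i) c').card : ℕ) : ℝ) := by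
            rw [hΩ, h1]
            push_cast
            rfl
          exact_mod_cast h3
        rw [h2]
        push_cast
        rfl
      rw [hcount]
      have hmode := bw_mode_ge hc00 (by omega : c0 < c0 + ∑ j, c' j)
      have hb1 : 1 ≤ B * b0 := by
        refine hmode.trans ?_
        refine mul_le_mul_of_nonneg_right ?_ hbw0
        rw [hsumc] at hBsum
        exact hBsum
      have hGG : G' * 1 ≤ Gk B k (n + 1 + 1) * b0 := by
        have hstep : G' * B ≤ Gk B k (n + 1 + 1) := by
          rw [hG']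
          unfold Gk
          have e1 : min (n + 1 - 1) (2 * k - 2) = n := by
            simp only [Nat.add_sub_cancel]
            exact min_eq_left (by omega)
          have e2 : min (n + 1 + 1 - 1) (2 * k - 2) = n + 1 := by
            simp only [Nat.add_sub_cancel]
            exact min_eq_left (by omega)
          rw [e1, e2, pow_succ]
          have h7 : ((Nat.choose (max (n + 1) k) k : ℕ) : ℝ) ≤ (Nat.choose (max (n + 1 + 1) k) k : ℝ) := by
            exact_mod_cast Nat.choose_le_choose k (by omega)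
          have h8 : ((n + 1 : ℕ) : ℝ) * (((n + 1 : ℕ) : ℝ) + 1) / 2
              ≤ ((n + 1 + 1 : ℕ) : ℝ) * (((n + 1 + 1 : ℕ) : ℝ) + 1) / 2 := by
            push_cast
            have : (0 : ℝ) ≤ n := by positivity
            nlinarith
          have h9 : 0 ≤ B ^ n * B := by positivity
          calc B ^ n * (Nat.choose (max (n + 1) k) k : ℝ) * (((n + 1 : ℕ) : ℝ) * (((n + 1 : ℕ) : ℝ) + 1) / 2) * B
              = (B ^ n * B) * ((Nat.choose (max (n + 1) k) k : ℝ)
                * (((n + 1 : ℕ) : ℝ) * (((n + 1 : ℕ) : ℝ) + 1) / 2)) := by ring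
            _ ≤ (B ^ n * B) * ((Nat.choose (max (n + 1 + 1) k) k : ℝ)
                * (((n + 1 + 1 : ℕ) : ℝ) * (((n + 1 + 1 : ℕ) : ℝ) + 1) / 2)) := by
                refine mul_le_mul_of_nonneg_left ?_ h9
                exact mul_le_mul h7 h8 (by positivity) (by positivity)
            _ = _ := by ring
        calc G' * 1 ≤ G' * (B * b0) := mul_le_mul_of_nonneg_left hb1 hG'0
          _ = (G' * B) * b0 := by ring
          _ ≤ _ := mul_le_mul_of_nonneg_right hstep hbw0
      calc ∑ x ∈ lev R c0, ((tabs (fun i => R i - x i) c').card : ℝ≥0∞)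
          ≤ ∑ x ∈ lev R c0, ENNReal.ofReal (G' * β') * Ihat (fun i => R i - x i) c' :=
            Finset.sum_le_sum hIH
        _ = ENNReal.ofReal (G' * β') * ∑ x ∈ lev R c0, Ihat (fun i => R i - x i) c' := by
            rw [Finset.mul_sum]
        _ ≤ ENNReal.ofReal (G' * β') * Ihat R (Fin.cons c0 c') := by gcongr
        _ ≤ _ := by
            gcongr ENNReal.ofReal ?_ * _
            calc G' * β' = (G' * 1) * β' := by ring
              _ ≤ (Gk B k (n + 1 + 1) * b0) * β' := mul_le_mul_of_nonneg_right hGG hβ'0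
              _ = _ := by ring
    · -- early column: the Poisson binomial step
      have hfirst : ∀ l : Fin (n + 1), (Fin.cons c0 c' : Fin (n + 1 + 1) → ℕ) 0
          ≤ (Fin.cons c0 c' : Fin (n + 1 + 1) → ℕ) l.succ := by
        intro l
        rw [Fin.cons_zero, Fin.cons_succ]
        exact hmono (Fin.zero_le _)
      have htab := tab_Yp (n := n + 1) R (Fin.cons c0 c') hfirst
      simp only [Fin.cons_zero] at htab
      rw [sum_first_col] at htab
      rw [← hΩ] at htab
      have hrec := Ihat_rec R c0 c' hc00 hcC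
      set K : ℝ := ((n + 1 : ℕ) : ℝ) / (((n + 1 : ℕ) : ℝ) + 2) * ((c0 : ℝ) - (m : ℝ) / (((n + 1 : ℕ) : ℝ) + 1))
        with hK
      have hchain : ENNReal.ofReal K * (Ω : ℝ≥0∞)
          ≤ ENNReal.ofReal (G' * β') * (ENNReal.ofReal (Acst (∑ i, R i) c0) * Ihat R (Fin.cons c0 c')) := by
        have h1 : ENNReal.ofReal (K * (Ω : ℝ))
            ≤ ENNReal.ofReal (∑ x ∈ lev R c0, Yp R x * ((tabs (fun i => R i - x i) c').card : ℝ)) :=
          ENNReal.ofReal_le_ofReal htab
        rw [ENNReal.ofReal_sum_of_nonneg (fun x hx =>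
          mul_nonneg (Yp_nonneg (mem_lev.1 hx).1) (Nat.cast_nonneg _))] at h1
        by_cases hK0 : 0 ≤ K
        · rw [ENNReal.ofReal_mul hK0, ENNReal.ofReal_natCast] at h1
          refine h1.trans ?_
          calc _ ≤ ∑ x ∈ lev R c0, ENNReal.ofReal (Yp R x)
                * (ENNReal.ofReal (G' * β') * Ihat (fun i => R i - x i) c') := by
                refine Finset.sum_le_sum fun x hx => ?_
                have hY := Yp_nonneg (mem_lev.1 hx).1
                rw [ENNReal.ofReal_mul hY, ENNReal.ofReal_natCast]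
                gcongr
                exact hIH x hx
            _ = ENNReal.ofReal (G' * β') * ∑ x ∈ lev R c0, ENNReal.ofReal (Yp R x)
                * Ihat (fun i => R i - x i) c' := by
                rw [Finset.mul_sum]
                refine Finset.sum_congr rfl fun x _ => ?_
                ring
            _ ≤ _ := by gcongr
        · rw [ENNReal.ofReal_of_nonpos (le_of_not_ge hK0), zero_mul]
          exact bot_le
      -- arithmetic
      have hν : 2 * k ≤ n + 2 := by omega
      have hkr : (2 : ℝ) * k ≤ (n : ℝ) + 2 := by exact_mod_cast hν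
      have hk1 : (1 : ℝ) ≤ k := by exact_mod_cast hk
      have hmc : (m : ℝ) ≤ k * c0 := by exact_mod_cast hcm 0
      have hc0r : (0 : ℝ) < c0 := by exact_mod_cast hc00
      have hnn : (0 : ℝ) ≤ n := by positivity
      have hνk : 0 < (n : ℝ) + 2 - k := by linarith
      set κ : ℝ := ((n : ℝ) + 1) / ((n : ℝ) + 3) * (((n : ℝ) + 2 - k) / ((n : ℝ) + 2)) with hκ
      have hκ0 : 0 < κ := by positivity
      have hKlow : κ * c0 ≤ K := by
        have e1 : ((n + 1 : ℕ) : ℝ) = (n : ℝ) + 1 := by push_cast; ring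
        rw [hK, e1, hκ]
        have e2 : (n : ℝ) + 1 + 2 = (n : ℝ) + 3 := by ring
        have e3 : (n : ℝ) + 1 + 1 = (n : ℝ) + 2 := by ring
        rw [e2, e3, mul_assoc]
        refine mul_le_mul_of_nonneg_left ?_ (by positivity)
        have h5 : (m : ℝ) / ((n : ℝ) + 2) ≤ (k * c0 : ℝ) / ((n : ℝ) + 2) :=
          div_le_div_of_nonneg_right hmc (by positivity)
        have h6 : ((n : ℝ) + 2 - k) / ((n : ℝ) + 2) * (c0 : ℝ) = (c0 : ℝ) - (k * c0 : ℝ) / ((n : ℝ) + 2) := by
          field_simp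
        rw [h6]
        linarith
      have hKpos : 0 < K := lt_of_lt_of_le (by positivity) hKlow
      have hinv : ENNReal.ofReal (1 / K) * ENNReal.ofReal K = 1 := by
        rw [← ENNReal.ofReal_mul (by positivity)]
        rw [one_div, inv_mul_cancel₀ hKpos.ne', ENNReal.ofReal_one]
      have hA0 := (Acst_pos hc00 hcC).le
      have hGeq : G' = Gk B k (n + 1 + 1) * κ := by
        rw [hG', hκ]
        unfold Gk
        have e1 : min (n + 1 - 1) (2 * k - 2) = 2 * k - 2 := by
          simp only [Nat.add_sub_cancel]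
          exact min_eq_right (by omega)
        have e2 : min (n + 1 + 1 - 1) (2 * k - 2) = 2 * k - 2 := by
          simp only [Nat.add_sub_cancel]
          exact min_eq_right (by omega)
        have e3 : max (n + 1) k = n + 1 := max_eq_left (by omega)
        have e4 : max (n + 1 + 1) k = n + 1 + 1 := max_eq_left (by omega)
        rw [e1, e2, e3, e4]
        have e5 := Nat.choose_mul_succ_eq (n + 1) k
        have e6 : ((Nat.choose (n + 1) k : ℕ) : ℝ) * ((n : ℝ) + 2)
            = ((Nat.choose (n + 1 + 1) k : ℕ) : ℝ) * ((n : ℝ) + 2 - k) := by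
          have h8 : k ≤ n + 1 + 1 := by omega
          have h9 : ((n + 1 + 1 - k : ℕ) : ℝ) = (n : ℝ) + 2 - k := by
            rw [Nat.cast_sub h8]
            push_cast
            ring
          rw [← h9]
          have e7 : (n : ℝ) + 2 = ((n + 1 + 1 : ℕ) : ℝ) := by
            push_cast
            ring
          rw [e7]
          exact_mod_cast e5
        have e8 : ((n + 1 : ℕ) : ℝ) = (n : ℝ) + 1 := by push_cast; ring
        have e9 : ((n + 1 + 1 : ℕ) : ℝ) = (n : ℝ) + 2 := by push_cast; ring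
        rw [e8, e9]
        have h10 : (n : ℝ) + 2 ≠ 0 := by positivity
        have h11 : (n : ℝ) + 3 ≠ 0 := by positivity
        set X := ((Nat.choose (n + 1) k : ℕ) : ℝ)
        set Y := ((Nat.choose (n + 1 + 1) k : ℕ) : ℝ)
        set P := B ^ (2 * k - 2)
        field_simp
        have : X * ((n : ℝ) + 2) = Y * ((n : ℝ) + 2 - k) := e6
        linear_combination (P * ((n : ℝ) + 3)) * this
      calc (Ω : ℝ≥0∞) = ENNReal.ofReal (1 / K) * (ENNReal.ofReal K * (Ω : ℝ≥0∞)) := by
            rw [← mul_assoc, hinv, one_mul]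
        _ ≤ ENNReal.ofReal (1 / K)
            * (ENNReal.ofReal (G' * β') * (ENNReal.ofReal (Acst (∑ i, R i) c0) * Ihat R (Fin.cons c0 c'))) := by
            gcongr
        _ = ENNReal.ofReal (1 / K * (G' * β') * Acst (∑ i, R i) c0) * Ihat R (Fin.cons c0 c') := by
            rw [ENNReal.ofReal_mul (p := 1 / K * (G' * β')) (by positivity),
              ENNReal.ofReal_mul (p := 1 / K) (by positivity)]
            ring
        _ ≤ _ := by
            gcongr ENNReal.ofReal ?_ * _
            have hAle : Acst (∑ i, R i) c0 ≤ (c0 : ℝ) * b0 := by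
              unfold Acst
              rw [hsumR]
              have h7 : 0 ≤ (c0 : ℝ) / ((c0 + ∑ j, c' j : ℕ) : ℝ) := by positivity
              have : (1 - (c0 : ℝ) / ((c0 + ∑ j, c' j : ℕ) : ℝ)) * c0 ≤ c0 := by nlinarith
              exact mul_le_mul_of_nonneg_right this hbw0
            have hGK : G' * c0 / K ≤ Gk B k (n + 1 + 1) := by
              rw [div_le_iff₀ hKpos, hGeq, mul_assoc]
              exact mul_le_mul_of_nonneg_left hKlow (Gk_nonneg hB _ _)
            calc 1 / K * (G' * β') * Acst (∑ i, R i) c0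
                ≤ 1 / K * (G' * β') * ((c0 : ℝ) * b0) :=
                  mul_le_mul_of_nonneg_left hAle (by positivity)
              _ = (G' * c0 / K) * (b0 * β') := by
                  field_simp
              _ ≤ Gk B k (n + 1 + 1) * (b0 * β') :=
                  mul_le_mul_of_nonneg_right hGK (by positivity)

end Vale.Agent.Lib.P328.Cap
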