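import Mathlib

/-!
# P328, capacity bound: flux identities for products of binomial laws

Independent `X i ~ Bin (R i, p i)`. We work with the weight `wt R p x` of the integer vector `x`
on the level sets `lev R k = {x : 0 ≤ x ≤ R, ∑ x = k}`.
-/

namespace Vale.Agent.Lib.P328.Cap

open Finset

variable {m : ℕ}

/-- The box of integer vectors `0 ≤ x ≤ R`. -/
def box (R : Fin m → ℕ) : Finset (Fin m → ℕ) := Fintype.piFinset fun i => range (R i + 1)

/-- The vectors of the box `0 ≤ x ≤ R` with coordinate sum `k`. -/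
def lev (R : Fin m → ℕ) (k : ℕ) : Finset (Fin m → ℕ) := (box R).filter fun x => ∑ i, x i = k

theorem mem_box {R x : Fin m → ℕ} : x ∈ box R ↔ ∀ i, x i ≤ R i := by
  simp [box, Fintype.mem_piFinset]

theorem mem_lev {R x : Fin m → ℕ} {k : ℕ} : x ∈ lev R k ↔ (∀ i, x i ≤ R i) ∧ ∑ i, x i = k := by
  simp [lev, mem_box]

/-- One binomial weight. -/
noncomputable def bw (R : ℕ) (p : ℝ) (v : ℕ) : ℝ := (R.choose v : ℝ) * p ^ v * (1 - p) ^ (R - v)

/-- The product of binomial weights of the vector `x`. -/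
noncomputable def wt (R : Fin m → ℕ) (p : Fin m → ℝ) (x : Fin m → ℕ) : ℝ :=
  ∏ i, bw (R i) (p i) (x i)

theorem bw_nonneg {R : ℕ} {p : ℝ} (h0 : 0 ≤ p) (h1 : p ≤ 1) (v : ℕ) : 0 ≤ bw R p v := by
  unfold bw
  have : 0 ≤ 1 - p := by linarith
  positivity

theorem wt_nonneg {R : Fin m → ℕ} {p : Fin m → ℝ} (h0 : ∀ i, 0 ≤ p i) (h1 : ∀ i, p i ≤ 1)
    (x : Fin m → ℕ) : 0 ≤ wt R p x :=
  Finset.prod_nonneg fun i _ => bw_nonneg (h0 i) (h1 i) _

/-- The binomial ratio. -/
theorem bw_succ {R : ℕ} {p : ℝ} {v : ℕ} (hv : v < R) :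
    (1 - p) * ((v : ℝ) + 1) * bw R p (v + 1) = p * ((R : ℝ) - v) * bw R p v := by
  unfold bw
  have h1 : R - v = (R - (v + 1)) + 1 := by omega
  have h2 : ((R.choose (v + 1) : ℝ)) * ((v : ℝ) + 1) = (R.choose v : ℝ) * ((R : ℝ) - v) := by
    have := Nat.choose_succ_right_eq R v
    have h3 : ((R - v : ℕ) : ℝ) = (R : ℝ) - v := by
      rw [Nat.cast_sub hv.le]
    rw [← h3]
    exact_mod_cast this
  rw [h1, pow_succ (1 - p) (R - (v + 1))]
  calc (1 - p) * ((v : ℝ) + 1) * ((R.choose (v + 1) : ℝ) * p ^ (v + 1) * (1 - p) ^ (R - (v + 1)))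
      = (((R.choose (v + 1) : ℝ)) * ((v : ℝ) + 1)) * p ^ (v + 1) * (1 - p) ^ (R - (v + 1)) * (1 - p) := by
        ring
    _ = p * ((R : ℝ) - v) * ((R.choose v : ℝ) * p ^ v * ((1 - p) ^ (R - (v + 1)) * (1 - p))) := by
        rw [h2]; ring

/-- The weight factorizes over one coordinate. -/
theorem wt_factor (R : Fin m → ℕ) (p : Fin m → ℝ) (x : Fin m → ℕ) (i : Fin m) :
    wt R p x = (∏ j ∈ univ.erase i, bw (R j) (p j) (x j)) * bw (R i) (p i) (x i) := by
  unfold wt
  rw [Finset.prod_erase_mul univ (fun j => bw (R j) (p j) (x j)) (mem_univ i)]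

/-- Changing one coordinate. -/
theorem wt_update (R : Fin m → ℕ) (p : Fin m → ℝ) (x : Fin m → ℕ) (i : Fin m) (v : ℕ) :
    wt R p (Function.update x i v)
      = (∏ j ∈ univ.erase i, bw (R j) (p j) (x j)) * bw (R i) (p i) v := by
  rw [wt_factor R p _ i]
  have h : ∏ j ∈ univ.erase i, bw (R j) (p j) (Function.update x i v j)
      = ∏ j ∈ univ.erase i, bw (R j) (p j) (x j) := by
    refine Finset.prod_congr rfl fun j hj => ?_
    rw [Function.update_of_ne (Finset.ne_of_mem_erase hj)]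
  rw [h, Function.update_self]

theorem sum_update (x : Fin m → ℕ) (i : Fin m) (v : ℕ) :
    ∑ j, Function.update x i v j + x i = ∑ j, x j + v := by
  rw [← Finset.sum_erase_add univ _ (mem_univ i), ← Finset.sum_erase_add univ x (mem_univ i)]
  have h : ∑ j ∈ univ.erase i, Function.update x i v j = ∑ j ∈ univ.erase i, x j := by
    refine Finset.sum_congr rfl fun j hj => ?_
    rw [Function.update_of_ne (Finset.ne_of_mem_erase hj)]
  rw [h, Function.update_self]
  omega

/-- The flux identity: moving one unit in row `i` between levels `k + 1` and `k`, with a test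
function `g`. -/
theorem flux (R : Fin m → ℕ) (p : Fin m → ℝ) (i : Fin m) (k : ℕ) (g : (Fin m → ℕ) → ℝ) :
    ∑ x ∈ lev R (k + 1), (1 - p i) * (x i : ℝ) * g x * wt R p x
      = ∑ x ∈ lev R k, p i * ((R i : ℝ) - x i) * g (Function.update x i (x i + 1)) * wt R p x := by
  classical
  have hL : ∑ x ∈ (lev R (k + 1)).filter (fun x => x i ≠ 0), (1 - p i) * (x i : ℝ) * g x * wt R p x
      = ∑ x ∈ lev R (k + 1), (1 - p i) * (x i : ℝ) * g x * wt R p x := by
    refine Finset.sum_filter_of_ne fun x _ hx h0 => hx ?_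
    simp [h0]
  have hR : ∑ x ∈ (lev R k).filter (fun x => x i ≠ R i),
        p i * ((R i : ℝ) - x i) * g (Function.update x i (x i + 1)) * wt R p x
      = ∑ x ∈ lev R k, p i * ((R i : ℝ) - x i) * g (Function.update x i (x i + 1)) * wt R p x := by
    refine Finset.sum_filter_of_ne fun x _ hx h0 => hx ?_
    simp [h0]
  rw [← hL, ← hR]
  refine Finset.sum_nbij' (fun y => Function.update y i (y i - 1)) (fun x => Function.update x i (x i + 1))
    ?_ ?_ ?_ ?_ ?_
  · intro y hy
    simp only [mem_filter, mem_lev] at hy ⊢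
    obtain ⟨⟨h1, h2⟩, h3⟩ := hy
    refine ⟨⟨?_, ?_⟩, ?_⟩
    · intro j
      by_cases hj : j = i
      · subst hj; simp only [Function.update_self]; have := h1 j; omega
      · rw [Function.update_of_ne hj]; exact h1 j
    · have := sum_update y i (y i - 1)
      omega
    · simp only [Function.update_self]
      have := h1 i
      omega
  · intro x hx
    simp only [mem_filter, mem_lev] at hx ⊢
    obtain ⟨⟨h1, h2⟩, h3⟩ := hx
    refine ⟨⟨?_, ?_⟩, ?_⟩
    · intro j
      by_cases hj : j = i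
      · subst hj; simp only [Function.update_self]; have := h1 j; omega
      · rw [Function.update_of_ne hj]; exact h1 j
    · have := sum_update x i (x i + 1)
      omega
    · simp
  · intro y hy
    simp only [mem_filter, mem_lev] at hy
    obtain ⟨⟨h1, h2⟩, h3⟩ := hy
    funext j
    by_cases hj : j = i
    · subst hj; simp only [Function.update_self]; omega
    · simp only [Function.update_of_ne hj]
  · intro x hx
    funext j
    by_cases hj : j = i
    · subst hj; simp
    · simp only [Function.update_of_ne hj]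
  · intro y hy
    simp only [mem_filter, mem_lev] at hy
    obtain ⟨⟨h1, h2⟩, h3⟩ := hy
    set x := Function.update y i (y i - 1) with hx
    have hxi : x i = y i - 1 := by simp [hx]
    have hup : Function.update x i (x i + 1) = y := by
      funext j
      by_cases hj : j = i
      · subst hj; simp only [Function.update_self, hxi]; omega
      · simp only [Function.update_of_ne hj]; simp [hx, Function.update_of_ne hj]
    rw [hup]
    have hv : x i < R i := by have := h1 i; omega
    have hbw := bw_succ (R := R i) (p := p i) hv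
    have hw := wt_update R p x i (x i + 1)
    rw [hup] at hw
    have hyi : (y i : ℝ) = (x i : ℝ) + 1 := by
      have : y i = x i + 1 := by omega
      rw [this]; push_cast; ring
    rw [hw, wt_factor R p x i, hyi]
    set E := ∏ j ∈ univ.erase i, bw (R j) (p j) (x j)
    calc (1 - p i) * ((x i : ℝ) + 1) * g y * (E * bw (R i) (p i) (x i + 1))
        = E * g y * ((1 - p i) * ((x i : ℝ) + 1) * bw (R i) (p i) (x i + 1)) := by ring
      _ = E * g y * (p i * ((R i : ℝ) - x i) * bw (R i) (p i) (x i)) := by rw [hbw]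
      _ = p i * ((R i : ℝ) - x i) * g y * (E * bw (R i) (p i) (x i)) := by ring

/-- The deviation of coordinate `i` from its mean. -/
noncomputable def dv (R : Fin m → ℕ) (p : Fin m → ℝ) (x : Fin m → ℕ) (i : Fin m) : ℝ :=
  (x i : ℝ) - (R i : ℝ) * p i

/-- Detailed balance between two rows. -/
theorem balance (R : Fin m → ℕ) (p : Fin m → ℝ) (i k : Fin m) (c : ℕ) (hc : 0 < c) :
    ∑ x ∈ lev R c, (p k * (1 - p i) * (x i : ℝ) * ((R k : ℝ) - x k)
        - p i * (1 - p k) * ((R i : ℝ) - x i) * (x k : ℝ)) * wt R p x = 0 := by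
  obtain ⟨c', rfl⟩ : ∃ c', c = c' + 1 := ⟨c - 1, by omega⟩
  by_cases hik : i = k
  · subst hik
    refine Finset.sum_eq_zero fun x _ => ?_
    ring
  have h1 := flux R p i c' (fun x => (R k : ℝ) - x k)
  have h2 := flux R p k c' (fun x => (R i : ℝ) - x i)
  simp only [Function.update_of_ne (Ne.symm hik), Function.update_of_ne hik] at h1 h2
  have h3 : ∑ x ∈ lev R (c' + 1), (p k * (1 - p i) * (x i : ℝ) * ((R k : ℝ) - x k)
        - p i * (1 - p k) * ((R i : ℝ) - x i) * (x k : ℝ)) * wt R p x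
      = p k * ∑ x ∈ lev R (c' + 1), (1 - p i) * (x i : ℝ) * ((R k : ℝ) - x k) * wt R p x
        - p i * ∑ x ∈ lev R (c' + 1), (1 - p k) * (x k : ℝ) * ((R i : ℝ) - x i) * wt R p x := by
    rw [Finset.mul_sum, Finset.mul_sum, ← Finset.sum_sub_distrib]
    refine Finset.sum_congr rfl fun x _ => ?_
    ring
  rw [h3, h1, h2, Finset.mul_sum, Finset.mul_sum, ← Finset.sum_sub_distrib]
  refine Finset.sum_eq_zero fun x _ => ?_
  ring

/-- The linear statistic `L = ∑ p i * dv i`. -/
noncomputable def lin (R : Fin m → ℕ) (p : Fin m → ℝ) (x : Fin m → ℕ) : ℝ :=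
  ∑ i, p i * dv R p x i

/-- The variance of the sum. -/
noncomputable def vr (R : Fin m → ℕ) (p : Fin m → ℝ) : ℝ :=
  ∑ i, (R i : ℝ) * p i * (1 - p i)

/-- Pointwise form of the balance quantity on a level with mean equal to the level. -/
theorem balance_pointwise (R : Fin m → ℕ) (p : Fin m → ℝ) (x : Fin m → ℕ)
    (hy : ∑ i, dv R p x i = 0) :
    ∑ i, ∑ k, p i * (p k * (1 - p i) * (x i : ℝ) * ((R k : ℝ) - x k)
        - p i * (1 - p k) * ((R i : ℝ) - x i) * (x k : ℝ))
      = vr R p * lin R p x - lin R p x ^ 2 := by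
  have hpt : ∀ i k, p i * (p k * (1 - p i) * (x i : ℝ) * ((R k : ℝ) - x k)
        - p i * (1 - p k) * ((R i : ℝ) - x i) * (x k : ℝ))
      = ((R k : ℝ) * p k * (1 - p k)) * (p i * dv R p x i)
        - (p i * ((R i : ℝ) * p i * (1 - p i))) * dv R p x k
        + (p i ^ 2 * dv R p x i) * dv R p x k
        - (p i * dv R p x i) * (p k * dv R p x k) := by
    intro i k
    unfold dv
    ring
  simp only [hpt, Finset.sum_add_distrib, Finset.sum_sub_distrib]
  have e1 : ∑ i, ∑ k, ((R k : ℝ) * p k * (1 - p k)) * (p i * dv R p x i) = vr R p * lin R p x := by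
    unfold vr lin
    rw [Finset.sum_mul_sum, Finset.sum_comm]
  have e2 : ∑ i, ∑ k, (p i * ((R i : ℝ) * p i * (1 - p i))) * dv R p x k
      = (∑ i, p i * ((R i : ℝ) * p i * (1 - p i))) * ∑ k, dv R p x k := by
    rw [Finset.sum_mul_sum]
  have e3 : ∑ i, ∑ k, (p i ^ 2 * dv R p x i) * dv R p x k
      = (∑ i, p i ^ 2 * dv R p x i) * ∑ k, dv R p x k := by
    rw [Finset.sum_mul_sum]
  have e4 : ∑ i, ∑ k, (p i * dv R p x i) * (p k * dv R p x k) = lin R p x ^ 2 := by
    unfold lin
    rw [sq, Finset.sum_mul_sum]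
  rw [e1, e2, e3, e4, hy]
  ring

theorem sum_dv_zero {R : Fin m → ℕ} {p : Fin m → ℝ} {c : ℕ}
    (hmean : ∑ i, (R i : ℝ) * p i = c) {x : Fin m → ℕ} (hx : x ∈ lev R c) :
    ∑ i, dv R p x i = 0 := by
  unfold dv
  rw [Finset.sum_sub_distrib, hmean]
  have := (mem_lev.1 hx).2
  rw [← this]
  push_cast
  ring

/-- The key identity: `V * E[L] = E[L^2]` on the level `c`, when the mean is `c`. -/
theorem var_lin (R : Fin m → ℕ) (p : Fin m → ℝ) (c : ℕ) (hc : 0 < c)
    (hmean : ∑ i, (R i : ℝ) * p i = c) :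
    vr R p * ∑ x ∈ lev R c, lin R p x * wt R p x = ∑ x ∈ lev R c, lin R p x ^ 2 * wt R p x := by
  have h0 : ∑ x ∈ lev R c, (vr R p * lin R p x - lin R p x ^ 2) * wt R p x = 0 := by
    have h1 : ∀ x ∈ lev R c, (vr R p * lin R p x - lin R p x ^ 2) * wt R p x
        = ∑ i, ∑ k, p i * ((p k * (1 - p i) * (x i : ℝ) * ((R k : ℝ) - x k)
          - p i * (1 - p k) * ((R i : ℝ) - x i) * (x k : ℝ)) * wt R p x) := by
      intro x hx
      rw [← balance_pointwise R p x (sum_dv_zero hmean hx), Finset.sum_mul]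
      refine Finset.sum_congr rfl fun i _ => ?_
      rw [Finset.sum_mul]
      refine Finset.sum_congr rfl fun k _ => ?_
      ring
    rw [Finset.sum_congr rfl h1, Finset.sum_comm]
    refine Finset.sum_eq_zero fun i _ => ?_
    rw [Finset.sum_comm]
    refine Finset.sum_eq_zero fun k _ => ?_
    rw [← Finset.mul_sum, balance R p i k c hc, mul_zero]
  rw [Finset.mul_sum, ← sub_eq_zero, ← Finset.sum_sub_distrib]
  rw [← h0]
  refine Finset.sum_congr rfl fun x _ => ?_
  ring

/-- `E[L] ≥ 0` on the level `c`, when the mean is `c`. -/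
theorem lin_nonneg (R : Fin m → ℕ) (p : Fin m → ℝ) (c : ℕ) (hc : 0 < c)
    (hmean : ∑ i, (R i : ℝ) * p i = c) (h0 : ∀ i, 0 ≤ p i) (h1 : ∀ i, p i ≤ 1)
    (hV : 0 < vr R p) :
    0 ≤ ∑ x ∈ lev R c, lin R p x * wt R p x := by
  have h := var_lin R p c hc hmean
  have h2 : 0 ≤ ∑ x ∈ lev R c, lin R p x ^ 2 * wt R p x :=
    Finset.sum_nonneg fun x _ => mul_nonneg (sq_nonneg _) (wt_nonneg h0 h1 x)
  rw [← h] at h2
  exact nonneg_of_mul_nonneg_right h2 hV

end Vale.Agent.Lib.P328.Cap
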