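import Vale.Agent.Lib.P328.Cap.PB2

/-!
# P328, capacity bound: Hoeffding's comparison for the convex function `(k - c)_+`

For independent Bernoulli trials with mean sum fixed, equalizing the probabilities raises the
expectation of a convex function of the sum. Linear functional on polynomials.
-/

namespace Vale.Agent.Lib.P328.Cap

open Finset Polynomial

/-- The linear functional on polynomials with `X ^ k ↦ g k`. -/
noncomputable def Lam (g : ℕ → ℝ) : ℝ[X] →ₗ[ℝ] ℝ :=
  Polynomial.lsum fun k => (g k) • LinearMap.id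

theorem Lam_C_mul_X_pow (g : ℕ → ℝ) (a : ℝ) (k : ℕ) : Lam g (C a * X ^ k) = a * g k := by
  unfold Lam
  rw [C_mul_X_pow_eq_monomial, Polynomial.lsum_apply, Polynomial.sum_monomial_index]
  · simp [mul_comm]
  · simp

/-- Discrete convexity. -/
def DConvex (g : ℕ → ℝ) : Prop := ∀ k, 0 ≤ g k - 2 * g (k + 1) + g (k + 2)

theorem Lam_mul_sq_nonneg {g : ℕ → ℝ} (hg : DConvex g) {Z : ℝ[X]} (hZ : ∀ k, 0 ≤ Z.coeff k) :
    0 ≤ Lam g (Z * (1 - X) ^ 2) := by
  rw [Z.as_sum_support_C_mul_X_pow, Finset.sum_mul, map_sum]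
  refine Finset.sum_nonneg fun k _ => ?_
  have h : C (Z.coeff k) * X ^ k * (1 - X) ^ 2
      = C (Z.coeff k) * X ^ k - C (2 * Z.coeff k) * X ^ (k + 1) + C (Z.coeff k) * X ^ (k + 2) := by
    simp only [C_mul, C_ofNat]
    ring
  rw [h, map_add, map_sub, Lam_C_mul_X_pow, Lam_C_mul_X_pow, Lam_C_mul_X_pow]
  have := mul_nonneg (hZ k) (hg k)
  nlinarith

theorem DConvex_pos_part (c : ℕ) : DConvex fun k => max ((k : ℝ) - c) 0 := by
  intro k
  push_cast
  have h1 := le_max_left ((k : ℝ) - c) 0
  have h2 := le_max_right ((k : ℝ) - c) 0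
  have h3 := le_max_left ((k : ℝ) + 2 - c) 0
  have h4 := le_max_right ((k : ℝ) + 2 - c) 0
  rcases le_total ((k : ℝ) + 1 - c) 0 with h | h
  · rw [max_eq_right h]
    linarith
  · rw [max_eq_left h]
    linarith

variable {A : Type*} [Fintype A] [DecidableEq A]

/-- The generating polynomial of the sum of independent Bernoulli trials. -/
noncomputable def PP (p : A → ℝ) : ℝ[X] := ∏ a, (C (1 - p a) + C (p a) * X)

omit [Fintype A] in
theorem coeff_nonneg_prod (s : Finset A) (p : A → ℝ) (h0 : ∀ a, 0 ≤ p a) (h1 : ∀ a, p a ≤ 1) :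
    ∀ k, 0 ≤ (∏ a ∈ s, (C (1 - p a) + C (p a) * X)).coeff k := by
  induction s using Finset.induction_on with
  | empty =>
    intro k
    simp only [prod_empty, coeff_one]
    split_ifs <;> norm_num
  | insert a s ha ih =>
    intro k
    rw [Finset.prod_insert ha, add_mul, coeff_add, coeff_C_mul, mul_assoc, coeff_C_mul]
    have hq : 0 ≤ 1 - p a := by linarith [h1 a]
    have h3 : 0 ≤ (X * ∏ a ∈ s, (C (1 - p a) + C (p a) * X)).coeff k := by
      cases k with
      | zero => simp
      | succ k => rw [coeff_X_mul]; exact ih k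
    have h4 := ih k
    have h5 := h0 a
    positivity

/-- The two trial identity. -/
theorem two_trials (u v : ℝ) :
    (C (1 - u) + C u * X) * (C (1 - v) + C v * X)
      = (C (1 - (u + v)) + C (u + v) * X) + C (u * v) * (1 - X : ℝ[X]) ^ 2 := by
  simp only [C_mul, C_add, C_sub, C_1]
  ring

/-- Moving two probabilities closer, keeping their sum, raises the expectation of a convex
function. -/
theorem Lam_PP_mono {g : ℕ → ℝ} (hg : DConvex g) (p p' : A → ℝ) (a b : A) (hab : a ≠ b)
    (hsame : ∀ e, e ≠ a → e ≠ b → p' e = p e)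
    (h0 : ∀ e, 0 ≤ p e) (h1 : ∀ e, p e ≤ 1)
    (hsum : p a + p b = p' a + p' b) (hprod : p a * p b ≤ p' a * p' b) :
    Lam g (PP p) ≤ Lam g (PP p') := by
  classical
  set s := (univ : Finset A).erase a |>.erase b with hs
  have hfac : ∀ q : A → ℝ, PP q
      = ((C (1 - q a) + C (q a) * X) * (C (1 - q b) + C (q b) * X))
        * ∏ e ∈ s, (C (1 - q e) + C (q e) * X) := by
    intro q
    unfold PP
    rw [← Finset.mul_prod_erase univ _ (mem_univ a),
      ← Finset.mul_prod_erase (univ.erase a) _ (mem_erase.2 ⟨hab.symm, mem_univ b⟩)]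
    ring
  have hZ : ∏ e ∈ s, (C (1 - p' e) + C (p' e) * X) = ∏ e ∈ s, (C (1 - p e) + C (p e) * X) := by
    refine Finset.prod_congr rfl fun e he => ?_
    have h2 := Finset.ne_of_mem_erase he
    have h3 := Finset.ne_of_mem_erase (Finset.mem_of_mem_erase he)
    rw [hsame e h3 h2]
  rw [hfac p, hfac p', hZ, two_trials, two_trials, ← hsum]
  set Z := ∏ e ∈ s, (C (1 - p e) + C (p e) * X) with hZdef
  have hZn : ∀ k, 0 ≤ Z.coeff k := coeff_nonneg_prod s p h0 h1
  have h4 := Lam_mul_sq_nonneg hg hZn
  have e1 : ∀ δ : ℝ, ((C (1 - (p a + p b)) + C (p a + p b) * X) + C δ * (1 - X : ℝ[X]) ^ 2) * Z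
      = (C (1 - (p a + p b)) + C (p a + p b) * X) * Z + δ • (Z * (1 - X) ^ 2) := by
    intro δ
    rw [smul_eq_C_mul]
    ring
  have e2 : ∀ δ : ℝ, Lam g (((C (1 - (p a + p b)) + C (p a + p b) * X) + C δ * (1 - X : ℝ[X]) ^ 2) * Z)
      = Lam g ((C (1 - (p a + p b)) + C (p a + p b) * X) * Z) + δ * Lam g (Z * (1 - X) ^ 2) := by
    intro δ
    rw [e1, LinearMap.map_add, LinearMap.map_smul, smul_eq_mul]
  rw [e2, e2]
  have := mul_le_mul_of_nonneg_right hprod h4
  linarith

/-- Hoeffding's comparison: all trials replaced by their average. -/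
theorem Lam_PP_le_const {g : ℕ → ℝ} (hg : DConvex g) (pbar : ℝ) :
    ∀ (N : ℕ) (p : A → ℝ), (∀ e, 0 ≤ p e) → (∀ e, p e ≤ 1) →
      ∑ e, p e = (Fintype.card A : ℝ) * pbar →
      (univ.filter fun e => p e ≠ pbar).card ≤ N →
      Lam g (PP p) ≤ Lam g (PP fun _ : A => pbar) := by
  intro N
  induction N with
  | zero =>
    intro p h0 h1 hs hc
    have : p = fun _ => pbar := by
      funext e
      by_contra hne
      have : e ∈ univ.filter fun e => p e ≠ pbar := by simp [hne]
      have h2 := Finset.card_pos.2 ⟨e, this⟩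
      omega
    rw [this]
  | succ N ih =>
    intro p h0 h1 hs hc
    by_cases hall : ∀ e, p e = pbar
    · have : p = fun _ => pbar := funext hall
      rw [this]
    push Not at hall
    obtain ⟨e0, he0⟩ := hall
    have hs' : ∑ e, (p e - pbar) = 0 := by
      rw [Finset.sum_sub_distrib, hs]
      simp
    have key : ∃ a b, p a < pbar ∧ pbar < p b := by
      rcases lt_or_gt_of_ne he0 with h | h
      · refine ⟨e0, ?_⟩
        by_contra hno
        push Not at hno
        have h3 : ∑ e, (p e - pbar) < 0 := by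
          refine Finset.sum_neg' (fun e _ => ?_) ⟨e0, mem_univ _, by linarith⟩
          have := hno e h
          linarith
        linarith
      · have : ∃ a, p a < pbar := by
          by_contra hno
          push Not at hno
          have h3 : 0 < ∑ e, (p e - pbar) := by
            refine Finset.sum_pos' (fun e _ => ?_) ⟨e0, mem_univ _, by linarith⟩
            have := hno e
            linarith
          linarith
        obtain ⟨a, ha⟩ := this
        exact ⟨a, e0, ha, h⟩
    obtain ⟨a, b, ha, hb⟩ := key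
    have hab : a ≠ b := by
      rintro rfl
      linarith
    set p' : A → ℝ := Function.update (Function.update p a pbar) b (p a + p b - pbar) with hp'
    have hp'a : p' a = pbar := by
      simp [hp', Function.update_of_ne hab]
    have hp'b : p' b = p a + p b - pbar := by simp [hp']
    have hp'e : ∀ e, e ≠ a → e ≠ b → p' e = p e := by
      intro e h2 h3
      simp [hp', Function.update_of_ne h2, Function.update_of_ne h3]
    have hbar0 : 0 ≤ pbar := by linarith [h0 a]
    have hbar1 : pbar ≤ 1 := by linarith [h1 b]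
    have h0' : ∀ e, 0 ≤ p' e := by
      intro e
      by_cases h2 : e = a
      · rw [h2, hp'a]; exact hbar0
      by_cases h3 : e = b
      · rw [h3, hp'b]; linarith [h0 a]
      rw [hp'e e h2 h3]; exact h0 e
    have h1' : ∀ e, p' e ≤ 1 := by
      intro e
      by_cases h2 : e = a
      · rw [h2, hp'a]; exact hbar1
      by_cases h3 : e = b
      · rw [h3, hp'b]; linarith [h1 b]
      rw [hp'e e h2 h3]; exact h1 e
    have hsum2 : ∑ e, p' e = ∑ e, p e := by
      rw [← Finset.add_sum_erase univ _ (mem_univ a), ← Finset.add_sum_erase univ p (mem_univ a),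
        ← Finset.add_sum_erase (univ.erase a) _ (mem_erase.2 ⟨hab.symm, mem_univ b⟩),
        ← Finset.add_sum_erase (univ.erase a) p (mem_erase.2 ⟨hab.symm, mem_univ b⟩)]
      have : ∑ e ∈ (univ.erase a).erase b, p' e = ∑ e ∈ (univ.erase a).erase b, p e := by
        refine Finset.sum_congr rfl fun e he => ?_
        exact hp'e e (Finset.ne_of_mem_erase (Finset.mem_of_mem_erase he)) (Finset.ne_of_mem_erase he)
      rw [this, hp'a, hp'b]
      ring
    have hstep : Lam g (PP p) ≤ Lam g (PP p') := by
      refine Lam_PP_mono hg p p' a b hab hp'e h0 h1 ?_ ?_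
      · rw [hp'a, hp'b]; ring
      · rw [hp'a, hp'b]
        nlinarith
    refine hstep.trans (ih p' h0' h1' (by rw [hsum2, hs]) ?_)
    have hsub : (univ.filter fun e => p' e ≠ pbar) ⊆ (univ.filter fun e => p e ≠ pbar).erase a := by
      intro e he
      simp only [mem_filter, mem_univ, true_and] at he
      simp only [mem_erase, mem_filter, mem_univ, true_and]
      have h2 : e ≠ a := by
        rintro rfl
        exact he hp'a
      refine ⟨h2, ?_⟩
      by_cases h3 : e = b
      · rw [h3]; exact hb.ne'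
      · rwa [hp'e e h2 h3] at he
    have hmem : a ∈ univ.filter fun e => p e ≠ pbar := by simp [ha.ne]
    have h4 := Finset.card_le_card hsub
    rw [Finset.card_erase_of_mem hmem] at h4
    omega

end Vale.Agent.Lib.P328.Cap
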