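import Vale.Agent.Lib.P328.Cap.PB3

/-!
# P328, capacity bound: the Poisson binomial inequality

If `X i ~ Bin (R i, p i)` are independent with `∑ R i * p i = c`, then
`∑_{|x| = c} Y'(x) * P(x) ≤ (1 - c/C) * c * P (Bin (C, c/C) = c)`.
-/

namespace Vale.Agent.Lib.P328.Cap

open Finset Polynomial

variable {m : ℕ}

theorem pow_eq_sum_bw (R : ℕ) (p : ℝ) :
    (C (1 - p) + C p * X : ℝ[X]) ^ R = ∑ v ∈ range (R + 1), C (bw R p v) * X ^ v := by
  rw [add_comm, add_pow]
  refine Finset.sum_congr rfl fun v _ => ?_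
  unfold bw
  simp only [C_mul, C_pow, map_natCast]
  ring

theorem poly_row (R : Fin m → ℕ) (p : Fin m → ℝ) :
    ∏ i, (C (1 - p i) + C (p i) * X : ℝ[X]) ^ R i
      = ∑ x ∈ box R, C (wt R p x) * X ^ (∑ i, x i) := by
  simp only [pow_eq_sum_bw]
  rw [Finset.prod_univ_sum]
  refine Finset.sum_congr rfl fun x _ => ?_
  unfold wt
  rw [Finset.prod_mul_distrib, map_prod, Finset.prod_pow_eq_pow_sum]

/-- The functional of the one sided deviation at `c`. -/
noncomputable def gpos (c : ℕ) : ℕ → ℝ := fun k => max ((k : ℝ) - c) 0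

theorem Aq_eq_Lam (R : Fin m → ℕ) (p : Fin m → ℝ) (c : ℕ) (hmean : ∑ i, (R i : ℝ) * p i = c) :
    Aq R p c = Lam (gpos c) (∏ i, (C (1 - p i) + C (p i) * X : ℝ[X]) ^ R i) := by
  rw [Aq_eq_mad R p c hmean, poly_row, map_sum]
  refine Finset.sum_congr rfl fun x _ => ?_
  rw [Lam_C_mul_X_pow]
  unfold gpos
  ring

theorem PP_sigma (R : Fin m → ℕ) (p : Fin m → ℝ) :
    PP (fun a : (Σ i, Fin (R i)) => p a.1)
      = ∏ i, (C (1 - p i) + C (p i) * X : ℝ[X]) ^ R i := by
  unfold PP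
  rw [Fintype.prod_sigma]
  refine Finset.prod_congr rfl fun i _ => ?_
  simp

theorem PP_const {A : Type*} [Fintype A] (a : ℝ) :
    PP (fun _ : A => a) = (C (1 - a) + C a * X : ℝ[X]) ^ Fintype.card A := by
  unfold PP
  simp [Finset.card_univ]

/-- The value at one row. -/
theorem Lam_single (C' c : ℕ) (hc : c ≤ C') (a : ℝ) (hmean : (C' : ℝ) * a = c) :
    Lam (gpos c) ((C (1 - a) + C a * X : ℝ[X]) ^ C') = (1 - a) * (c : ℝ) * bw C' a c := by
  have h := Aq_eq_Lam (m := 1) (fun _ => C') (fun _ => a) c (by simpa using hmean)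
  have h2 : ∏ i : Fin 1, (C (1 - a) + C a * X : ℝ[X]) ^ C' = (C (1 - a) + C a * X : ℝ[X]) ^ C' := by
    simp
  rw [h2] at h
  rw [← h]
  unfold Aq
  have hlev : lev (m := 1) (fun _ => C') c = {fun _ => c} := by
    ext x
    simp only [mem_lev, mem_singleton, Fin.sum_univ_one]
    constructor
    · rintro ⟨_, h3⟩
      funext i
      have : i = 0 := Subsingleton.elim _ _
      rw [this, h3]
    · rintro rfl
      exact ⟨fun _ => hc, rfl⟩
  rw [hlev, Finset.sum_singleton]
  unfold qx wt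
  simp

/-- The Poisson binomial inequality. -/
theorem pb_main (R : Fin m → ℕ) (p : Fin m → ℝ) (c : ℕ) (h0 : ∀ i, 0 < p i) (h1 : ∀ i, p i < 1)
    (hmean : ∑ i, (R i : ℝ) * p i = c) (hc : 0 < c) (hcC : c < ∑ i, R i) :
    ∑ x ∈ lev R c, Yp R x * wt R p x
      ≤ (1 - (c : ℝ) / (∑ i, R i : ℕ)) * (c : ℝ) * bw (∑ i, R i) ((c : ℝ) / (∑ i, R i : ℕ)) c := by
  have hC : (0 : ℝ) < ((∑ i, R i : ℕ) : ℝ) := by
    have : 0 < ∑ i, R i := by omega
    exact_mod_cast this
  have h0' : ∀ i, 0 ≤ p i := fun i => (h0 i).le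
  have h1' : ∀ i, p i ≤ 1 := fun i => (h1 i).le
  have hV : 0 < vr R p := by
    unfold vr
    refine Finset.sum_pos' (fun i _ => ?_) ?_
    · have := h0 i
      have := h1 i
      have h3 : 0 ≤ 1 - p i := by linarith
      positivity
    · have : ∃ i, 0 < R i := by
        by_contra hno
        push Not at hno
        have : ∑ i, R i = 0 := Finset.sum_eq_zero fun i _ => by have := hno i; omega
        omega
      obtain ⟨i, hi⟩ := this
      refine ⟨i, mem_univ _, ?_⟩
      have h4 : (0 : ℝ) < R i := by exact_mod_cast hi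
      have h5 := h0 i
      have h6 : 0 < 1 - p i := by linarith [h1 i]
      positivity
  have hL := lin_nonneg R p c hc hmean h0' h1' hV
  have hstep1 : ∑ x ∈ lev R c, Yp R x * wt R p x ≤ Aq R p c := by
    have : ∑ x ∈ lev R c, Yp R x * wt R p x
        ≤ ∑ x ∈ lev R c, (qx p x - lin R p x) * wt R p x :=
      Finset.sum_le_sum fun x hx =>
        mul_le_mul_of_nonneg_right (Yp_le R p (mem_lev.1 hx).1) (wt_nonneg h0' h1' x)
    have h2 : ∑ x ∈ lev R c, (qx p x - lin R p x) * wt R p x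
        = Aq R p c - ∑ x ∈ lev R c, lin R p x * wt R p x := by
      unfold Aq
      rw [← Finset.sum_sub_distrib]
      refine Finset.sum_congr rfl fun x _ => ?_
      ring
    linarith
  set pbar : ℝ := (c : ℝ) / (∑ i, R i : ℕ) with hpbar
  have hpbar0 : 0 ≤ pbar := by positivity
  have hpbar1 : pbar ≤ 1 := by
    rw [hpbar, div_le_one hC]
    exact_mod_cast hcC.le
  have hcard : Fintype.card (Σ i, Fin (R i)) = ∑ i, R i := by
    simp [Fintype.card_sigma]
  have hmeanbar : ((∑ i, R i : ℕ) : ℝ) * pbar = c := by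
    rw [hpbar]
    field_simp
  have hstep2 : Lam (gpos c) (PP (fun a : (Σ i, Fin (R i)) => p a.1))
      ≤ Lam (gpos c) (PP fun _ : (Σ i, Fin (R i)) => pbar) := by
    refine Lam_PP_le_const (DConvex_pos_part c) pbar _ _ (fun e => h0' _) (fun e => h1' _) ?_ le_rfl
    rw [hcard, hmeanbar, Fintype.sum_sigma, ← hmean]
    refine Finset.sum_congr rfl fun i _ => ?_
    simp
  rw [Aq_eq_Lam R p c hmean, ← PP_sigma] at hstep1
  have hfinal := Lam_single (∑ i, R i) c hcC.le pbar hmeanbar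
  rw [PP_const, hcard, hfinal] at hstep2
  exact hstep1.trans hstep2

end Vale.Agent.Lib.P328.Cap
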