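import Vale.Agent.Lib.P328.Cap.Final

/-!
# P328, capacity bound: invariance under permutation of the columns, log-concavity
-/

namespace Vale.Agent.Lib.P328.Cap

open Finset MeasureTheory
open scoped ENNReal Nat

variable {m n : ℕ}

theorem lintegral_comp_perm {E : Type} [MeasureSpace E] [SigmaFinite (volume : Measure E)]
    (σ : Equiv.Perm (Fin n)) (F : (Fin n → E) → ℝ≥0∞) :
    ∫⁻ t, F (t ∘ σ) = ∫⁻ t, F t := by
  have h := volume_measurePreserving_piCongrLeft (fun _ : Fin n => E) σ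
  have h2 := h.lintegral_comp_emb (MeasurableEquiv.measurableEmbedding _) (fun g => F (g ∘ σ))
  rw [← h2]
  refine lintegral_congr fun f => ?_
  have h3 : (MeasurableEquiv.piCongrLeft (fun _ : Fin n => E) σ) f ∘ σ = f := by
    funext a
    exact MeasurableEquiv.piCongrLeft_apply_apply (β := fun _ => E) σ f a
  simp only [h3]

theorem capa_comp (r : Fin m → ℕ) (c : Fin n → ℕ) (σ : Equiv.Perm (Fin n))
    (t : Fin n → Fin m → ℝ) : capa r (c ∘ σ) (t ∘ σ) = capa r c t := by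
  have hval : ∀ b : Fin n → ℝ,
      (∏ i, (∑ j, (t ∘ σ) j i * (b ∘ σ) j) ^ r i) / ∏ j, (b ∘ σ) j ^ (c ∘ σ) j
        = (∏ i, (∑ j, t j i * b j) ^ r i) / ∏ j, b j ^ c j := by
    intro b
    have h1 : ∀ i, ∑ j, (t ∘ σ) j i * (b ∘ σ) j = ∑ j, t j i * b j := fun i =>
      Equiv.sum_comp σ (fun j => t j i * b j)
    have h2 : ∏ j, (b ∘ σ) j ^ (c ∘ σ) j = ∏ j, b j ^ c j :=
      Equiv.prod_comp σ (fun j => b j ^ c j)
    simp only [h1, h2]
  unfold capa
  apply le_antisymm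
  · refine le_iInf fun b => ?_
    refine (iInf_le _ ⟨b.1 ∘ σ, fun j => b.2 _⟩).trans ?_
    simp only [hval, le_refl]
  · refine le_iInf fun b => ?_
    refine (iInf_le _ ⟨b.1 ∘ σ.symm, fun j => b.2 _⟩).trans ?_
    have := hval (b.1 ∘ σ.symm)
    have h4 : b.1 ∘ σ.symm ∘ σ = b.1 := by
      funext j
      simp
    simp only [Function.comp_assoc, h4] at this
    simp only [← this, le_refl]

theorem wmat_comp (σ : Equiv.Perm (Fin n)) (t : Fin n → Fin m → ℝ) : wmat (t ∘ σ) = wmat t :=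
  Equiv.prod_comp σ (fun j => wcol (t j))

theorem Ihat_comp (r : Fin m → ℕ) (c : Fin n → ℕ) (σ : Equiv.Perm (Fin n)) :
    Ihat r (c ∘ σ) = Ihat r c := by
  rw [Ihat_eq, Ihat_eq]
  congr 1
  rw [← lintegral_comp_perm σ (fun t => wmat t * capa r (c ∘ σ) t)]
  refine lintegral_congr fun t => ?_
  rw [wmat_comp, capa_comp]

theorem betaC_comp (c : Fin n → ℕ) (σ : Equiv.Perm (Fin n)) : betaC (c ∘ σ) = betaC c := by
  unfold betaC
  have h1 : ∑ j, (c ∘ σ) j = ∑ j, c j := Equiv.sum_comp σ c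
  have h2 : ∏ j, (((c ∘ σ) j : ℝ) ^ (c ∘ σ) j / ((((c ∘ σ) j)! : ℕ) : ℝ))
      = ∏ j, ((c j : ℝ) ^ c j / (((c j)! : ℕ) : ℝ)) :=
    Equiv.prod_comp σ (fun j => (c j : ℝ) ^ c j / (((c j)! : ℕ) : ℝ))
  rw [h1, h2]

theorem card_tabs_comp (r : Fin m → ℕ) (c : Fin n → ℕ) (σ : Equiv.Perm (Fin n)) :
    (tabs r (c ∘ σ)).card = (tabs r c).card := by
  refine Finset.card_nbij' (fun T => T ∘ σ.symm) (fun T => T ∘ σ) ?_ ?_ ?_ ?_
  · intro T hT
    obtain ⟨h1, h2⟩ := mem_tabs.1 hT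
    refine mem_tabs.2 ⟨fun j => ?_, fun i => ?_⟩
    · have := h1 (σ.symm j)
      simpa using this
    · rw [← h2 i]
      exact Equiv.sum_comp σ.symm (fun j => T j i)
  · intro T hT
    obtain ⟨h1, h2⟩ := mem_tabs.1 hT
    refine mem_tabs.2 ⟨fun j => ?_, fun i => ?_⟩
    · exact h1 (σ j)
    · rw [← h2 i]
      exact Equiv.sum_comp σ (fun j => T j i)
  · intro T _
    funext j
    simp
  · intro T _
    funext j
    simp

/-- The bound of the main theorem for arbitrary order of the columns. -/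
theorem card_tabs_le' (hm : 0 < m) (hn : 0 < n) (k : ℕ) (hk : 0 < k) (r : Fin m → ℕ) (c : Fin n → ℕ)
    (hsum : ∑ i, r i = ∑ j, c j) (hcm : ∀ j, m ≤ k * c j) :
    ((tabs r c).card : ℝ≥0∞)
      ≤ ENNReal.ofReal ((((∑ j, c j : ℕ) : ℝ) + 1) ^ (2 * k - 2) * (n : ℝ) ^ (k + 1) * ((n : ℝ) + 1) / 2
          * betaC c) * Ihat r c := by
  set σ := Tuple.sort c with hσ
  have hs : ∑ j, (c ∘ σ) j = ∑ j, c j := Equiv.sum_comp σ c
  have h := card_tabs_le hm hn k hk r (c ∘ σ) (by rw [hs, hsum]) (Tuple.monotone_sort c)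
    (fun j => hcm (σ j))
  rwa [card_tabs_comp, betaC_comp, Ihat_comp, hs] at h

/-- The capacity is log-concave in the coefficient matrix. -/
theorem capa_logconc (r : Fin m → ℕ) (c : Fin n → ℕ) (t t' : Fin n → Fin m → ℝ)
    (ht : ∀ j i, 0 < t j i) (ht' : ∀ j i, 0 < t' j i) (a : ℝ) (ha : 0 ≤ a) (ha1 : a ≤ 1) :
    capa r c t ^ a * capa r c t' ^ (1 - a) ≤ capa r c fun j i => a * t j i + (1 - a) * t' j i := by
  have ha2 : 0 ≤ 1 - a := by linarith
  conv_rhs => unfold capa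
  refine le_iInf fun b => ?_
  obtain ⟨b, hb⟩ := b
  set A : Fin m → ℝ := fun i => ∑ j, t j i * b j with hA
  set A' : Fin m → ℝ := fun i => ∑ j, t' j i * b j with hA'
  have hA0 : ∀ i, 0 ≤ A i := fun i => Finset.sum_nonneg fun j _ => (mul_pos (ht j i) (hb j)).le
  have hA'0 : ∀ i, 0 ≤ A' i := fun i => Finset.sum_nonneg fun j _ => (mul_pos (ht' j i) (hb j)).le
  set D : ℝ := ∏ j, b j ^ c j with hD
  have hD0 : 0 < D := Finset.prod_pos fun j _ => pow_pos (hb j) _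
  set u := ∏ i, A i ^ r i with hu
  set u' := ∏ i, A' i ^ r i with hu'
  have hu0 : 0 ≤ u := Finset.prod_nonneg fun i _ => pow_nonneg (hA0 i) _
  have hu'0 : 0 ≤ u' := Finset.prod_nonneg fun i _ => pow_nonneg (hA'0 i) _
  have h1 : capa r c t ≤ ENNReal.ofReal (u / D) := by
    unfold capa
    exact iInf_le (fun b : {b : Fin n → ℝ // ∀ j, 0 < b j} =>
      ENNReal.ofReal ((∏ i, (∑ j, t j i * b.1 j) ^ r i) / ∏ j, b.1 j ^ c j)) ⟨b, hb⟩
  have h2 : capa r c t' ≤ ENNReal.ofReal (u' / D) := by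
    unfold capa
    exact iInf_le (fun b : {b : Fin n → ℝ // ∀ j, 0 < b j} =>
      ENNReal.ofReal ((∏ i, (∑ j, t' j i * b.1 j) ^ r i) / ∏ j, b.1 j ^ c j)) ⟨b, hb⟩
  have hmix : ∀ i, ∑ j, (a * t j i + (1 - a) * t' j i) * b j = a * A i + (1 - a) * A' i := by
    intro i
    simp only [hA, hA', Finset.mul_sum]
    rw [← Finset.sum_add_distrib]
    refine Finset.sum_congr rfl fun j _ => ?_
    ring
  simp only [hmix]
  have hreal : (u / D) ^ a * (u' / D) ^ (1 - a)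
      ≤ (∏ i, (a * A i + (1 - a) * A' i) ^ r i) / D := by
    have e1 : (u / D) ^ a * (u' / D) ^ (1 - a) = u ^ a * u' ^ (1 - a) / D := by
      rw [Real.div_rpow hu0 hD0.le, Real.div_rpow hu'0 hD0.le]
      have : D ^ a * D ^ (1 - a) = D := by
        rw [← Real.rpow_add hD0]
        simp
      rw [div_mul_div_comm, this]
    rw [e1]
    refine div_le_div_of_nonneg_right ?_ hD0.le
    have e2 : u ^ a = ∏ i, (A i ^ r i) ^ a :=
      (Real.finsetProd_rpow _ _ (fun i _ => pow_nonneg (hA0 i) _) a).symm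
    have e3 : u' ^ (1 - a) = ∏ i, (A' i ^ r i) ^ (1 - a) :=
      (Real.finsetProd_rpow _ _ (fun i _ => pow_nonneg (hA'0 i) _) _).symm
    rw [e2, e3, ← Finset.prod_mul_distrib]
    refine Finset.prod_le_prod (fun i _ => ?_) fun i _ => ?_
    · have := hA0 i
      have := hA'0 i
      positivity
    · rw [← Real.rpow_pow_comm (hA0 i), ← Real.rpow_pow_comm (hA'0 i), ← mul_pow]
      refine pow_le_pow_left₀ (by
        have := hA0 i
        have := hA'0 i
        positivity) ?_ _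
      exact Real.geom_mean_le_arith_mean2_weighted ha ha2 (hA0 i) (hA'0 i) (by ring)
  have hx0 : 0 ≤ u / D := by positivity
  have hy0 : 0 ≤ u' / D := by positivity
  calc capa r c t ^ a * capa r c t' ^ (1 - a)
      ≤ ENNReal.ofReal (u / D) ^ a * ENNReal.ofReal (u' / D) ^ (1 - a) := by
        gcongr
    _ = ENNReal.ofReal ((u / D) ^ a * (u' / D) ^ (1 - a)) := by
        rw [ENNReal.ofReal_rpow_of_nonneg hx0 ha, ENNReal.ofReal_rpow_of_nonneg hy0 ha2,
          ENNReal.ofReal_mul (by positivity)]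
    _ ≤ _ := ENNReal.ofReal_le_ofReal hreal

end Vale.Agent.Lib.P328.Cap
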